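import Mathlib

/-!
# Row 113, S0150: a Newton polygon proof of unicellularity

`φ : ℤ → ℝ` has increments that grow on both sides of the origin.  If `f, u ∈ ℓ²(ℤ)` and
`∑ j, f j * u (j + n) * exp (φ j - φ (j + n)) = 0` for all `n ≥ 0`, then the support of `f` lies
strictly above the support of `u`.
-/

set_option autoImplicit false

namespace Crest.Agent.R113b

open Filter Topology Finset

/-- the increments of `φ` -/
def inc (φ : ℤ → ℝ) (i : ℤ) : ℝ := φ (i + 1) - φ i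

structure Cost (φ : ℤ → ℝ) : Prop where
  mono : ∀ i j, 0 ≤ i → i ≤ j → inc φ i ≤ inc φ j
  anti : ∀ i j, i ≤ j → j < 0 → inc φ j ≤ inc φ i
  lbp : ∀ i : ℤ, 0 ≤ i → 10 * ((i : ℝ) + 1) ≤ inc φ i
  lbn : ∀ i : ℤ, i < 0 → 10 * (-(i : ℝ)) ≤ inc φ i

theorem inc_refl (φ : ℤ → ℝ) (i : ℤ) : inc (fun j => -φ (-j)) i = inc φ (-i - 1) := by
  simp only [inc]
  rw [show -i - 1 + 1 = -i by ring, show -(i + 1) = -i - 1 by ring]
  ring

theorem Cost.refl {φ : ℤ → ℝ} (h : Cost φ) : Cost fun j => -φ (-j) where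
  mono i j hi hij := by
    rw [inc_refl, inc_refl]; exact h.anti _ _ (by omega) (by omega)
  anti i j hij hj := by
    rw [inc_refl, inc_refl]; exact h.mono _ _ (by omega) (by omega)
  lbp i hi := by
    rw [inc_refl]
    have := h.lbn (-i - 1) (by omega)
    push_cast at this
    linarith
  lbn i hi := by
    rw [inc_refl]
    have := h.lbp (-i - 1) (by omega)
    push_cast at this
    linarith

theorem le_of_steps {g : ℤ → ℝ} {s t : ℤ} (hst : s ≤ t)
    (h : ∀ i, s ≤ i → i < t → g i ≤ g (i + 1)) : g s ≤ g t := by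
  induction t, hst using Int.leInduction with
  | base => exact le_rfl
  | succ t hst ih => exact (ih fun i h1 h2 => h i h1 (by omega)).trans (h t hst (by omega))

theorem Cost.growth {φ : ℤ → ℝ} (h : Cost φ) {s t : ℤ} (hst : s ≤ t) :
    5 * ((t * |t| + t - (s * |s| + s) : ℤ) : ℝ) ≤ φ t - φ s := by
  have := le_of_steps (g := fun j => φ j - 5 * ((j * |j| + j : ℤ) : ℝ)) hst fun i _ _ => by
    rcases le_or_gt 0 i with hi | hi
    · have := h.lbp i hi
      rw [abs_of_nonneg hi, abs_of_nonneg (by omega : 0 ≤ i + 1)]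
      simp only [inc] at this
      push_cast
      linarith
    · have := h.lbn i hi
      rw [abs_of_neg hi, abs_of_nonpos (by omega : i + 1 ≤ 0)]
      simp only [inc] at this
      push_cast
      linarith
  push_cast at this ⊢
  linarith

/-- sums over windows of length `n` -/
theorem Cost.window {φ : ℤ → ℝ} (h : Cost φ) (j : ℤ) (n : ℕ) :
    10 * (((n + 1) ^ 2 / 4 : ℕ) : ℝ) ≤ φ (j + n) - φ j := by
  have h1 := h.growth (s := j) (t := j + n) (by omega)
  have h2 : 2 * (((n + 1) ^ 2 / 4 : ℕ) : ℤ) ≤ (j + n) * |j + n| + (j + n) - (j * |j| + j) := by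
    have h3 : (((n + 1) ^ 2 / 4 : ℕ) : ℤ) * 4 ≤ (n + 1) ^ 2 := by
      exact_mod_cast Nat.div_mul_le_self ((n + 1) ^ 2) 4
    have hn : (0 : ℤ) ≤ n := Int.natCast_nonneg n
    have h4 : (n : ℤ) ^ 2 ≤ 2 * ((j + n) * |j + n| - j * |j|) := by
      rcases le_total 0 j with hj | hj
      · rw [abs_of_nonneg hj, abs_of_nonneg (by omega)]; nlinarith
      · rcases le_total 0 (j + n) with hk | hk
        · rw [abs_of_nonpos hj, abs_of_nonneg hk]; nlinarith [sq_nonneg (2 * j + n)]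
        · rw [abs_of_nonpos hj, abs_of_nonpos hk]; nlinarith
    have h5 : ∀ t : ℤ, Even (t * |t| + t) := fun t => by
      rcases le_total 0 t with ht | ht
      · rw [abs_of_nonneg ht, show t * t + t = t * (t + 1) by ring]; exact Int.even_mul_succ_self t
      · rw [abs_of_nonpos ht, show t * -t + t = -((t - 1) * (t - 1 + 1)) by ring]
        exact (Int.even_mul_succ_self (t - 1)).neg
    obtain ⟨a, ha⟩ := h5 (j + n)
    obtain ⟨b, hb⟩ := h5 j
    rw [ha, hb]
    have h6 : (j + n) * |j + n| - j * |j| = 2 * a - 2 * b - n := by linarith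
    rw [h6] at h4
    have h7 : (((n + 1) ^ 2 / 4 : ℕ) : ℤ) * 4 ≤ 4 * (a - b) + 1 := by nlinarith
    omega
  have h3 : (2 * (((n + 1) ^ 2 / 4 : ℕ) : ℝ)) ≤
      (((j + n) * |j + n| + (j + n) - (j * |j| + j) : ℤ) : ℝ) := by
    have := (Int.cast_le (R := ℝ)).2 h2
    rwa [Int.cast_mul, Int.cast_natCast, Int.cast_ofNat] at this
  linarith

theorem Cost.quad {φ : ℤ → ℝ} (h : Cost φ) (m : ℤ) :
    ∃ C : ℝ, 0 ≤ C ∧ ∀ k : ℕ, -φ (m + k) ≤ C + C * k - 5 * k ^ 2 := by
  refine ⟨|φ m| + 10 * |(m : ℝ)| + 10 * (m : ℝ) ^ 2, by positivity, fun k => ?_⟩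
  have h1 := h.growth (s := m) (t := m + k) (by omega)
  have hk : (0 : ℝ) ≤ k := Nat.cast_nonneg k
  have h2 : (k : ℝ) ^ 2 - 2 * |(m : ℝ)| * k - 2 * (m : ℝ) ^ 2 ≤
      ((m : ℝ) + k) * |(m : ℝ) + k| - m * |(m : ℝ)| := by
    rcases le_total 0 (m : ℝ) with hj | hj
    · rw [abs_of_nonneg hj, abs_of_nonneg (by linarith)]; nlinarith
    · rcases le_total 0 ((m : ℝ) + k) with hk' | hk'
      · rw [abs_of_nonpos hj, abs_of_nonneg hk']; nlinarith
      · rw [abs_of_nonpos hj, abs_of_nonpos hk']; nlinarith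
  push_cast at h1
  nlinarith [neg_abs_le (φ m), mul_nonneg (abs_nonneg (φ m)) hk, mul_nonneg (sq_nonneg (m : ℝ)) hk,
    abs_nonneg (m : ℝ)]

/-- either all increments before `j` are at most `l`, or `j` is far and all later ones exceed `l` -/
theorem Cost.dich {φ : ℤ → ℝ} (h : Cost φ) {L : ℤ} {l : ℝ} (hl : ∀ i, |i| ≤ L → inc φ i ≤ l)
    {s j : ℤ} (hs : -L ≤ s) (hL : 0 ≤ L) (hj : s < j) :
    φ j - φ s - l * (j - s) ≤ inc φ s - l ∨
      (L < j ∧ ∀ n : ℕ, φ j - φ (j + n) + l * n ≤ 0) := by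
  by_cases hc : ∀ i, s < i → i < j → inc φ i ≤ l
  · left
    have := le_of_steps (g := fun i => l * i - φ i) (s := s + 1) (t := j) (by omega) fun i h1 h2 => by
      have := hc i (by omega) h2
      simp only [inc] at this
      push_cast
      linarith
    simp only [inc]
    push_cast at this
    linarith
  · right
    push Not at hc
    obtain ⟨i, h1, h2, h3⟩ := hc
    have h4 : L < i := by
      by_contra hn
      exact absurd (hl i (abs_le.2 ⟨by omega, by omega⟩)) (not_le.2 h3)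
    refine ⟨by omega, fun n => ?_⟩
    have := le_of_steps (g := fun i => φ i - l * i) (s := j) (t := j + n) (by omega) fun k h5 _ => by
      have := h.mono i k (by omega) (by omega)
      simp only [inc] at this h3
      push_cast
      linarith
    push_cast at this
    linarith

/-- the maximal term of a rapidly decaying sequence -/
theorem polygon {q : ℕ → ℝ} (h0 : 0 < q 0) {C : ℝ} (hC : 0 ≤ C)
    (hb : ∀ k : ℕ, q k ≤ Real.exp (C + C * k - 5 * k ^ 2)) :
    ∃ (I : ℝ → ℕ) (D : ℝ), (∀ l k, q k * Real.exp (l * k) ≤ q (I l) * Real.exp (l * I l)) ∧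
      Monotone I ∧ ∀ l, 0 ≤ l → 5 * (I l : ℝ) ≤ l + D := by
  set D := 2 * C + |Real.log (q 0)| with hD
  have hD0 : 0 ≤ D := by positivity
  have key : ∀ (l : ℝ) (k : ℕ), q 0 ≤ q k * Real.exp (l * k) → 5 * (k : ℝ) ≤ |l| + D := by
    intro l k hk
    rcases Nat.eq_zero_or_pos k with rfl | hk0
    · simp only [Nat.cast_zero, mul_zero]; positivity
    have hk1 : (1 : ℝ) ≤ k := by exact_mod_cast hk0
    have h1 : q 0 ≤ Real.exp (C + C * k - 5 * k ^ 2 + l * k) := by
      rw [Real.exp_add]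
      exact hk.trans (mul_le_mul_of_nonneg_right (hb k) (Real.exp_pos _).le)
    rw [← Real.log_le_iff_le_exp h0] at h1
    have h2 := neg_abs_le (Real.log (q 0))
    have h3 := le_abs_self l
    have h4 : 5 * (k : ℝ) * k ≤ (|l| + D) * k := by
      rw [hD]
      nlinarith [abs_nonneg (Real.log (q 0))]
    exact le_of_mul_le_mul_right h4 (by linarith)
  have hex : ∀ l : ℝ, ∃ i : ℕ, ∀ k, q k * Real.exp (l * k) ≤ q i * Real.exp (l * i) := by
    intro l
    obtain ⟨N, hN⟩ := exists_nat_gt (|l| + D)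
    have hN0 : 0 < N := by
      have : (0 : ℝ) < N := lt_of_le_of_lt (by positivity) hN
      exact_mod_cast this
    obtain ⟨i, -, hi⟩ := exists_max_image (range N) (fun k => q k * Real.exp (l * k))
      ⟨0, mem_range.2 hN0⟩
    refine ⟨i, fun k => ?_⟩
    have h1 := hi 0 (mem_range.2 hN0)
    simp only [Nat.cast_zero, mul_zero, Real.exp_zero, mul_one] at h1
    rcases le_total (q 0) (q k * Real.exp (l * k)) with h | h
    · refine hi k (mem_range.2 ?_)
      have := key l k h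
      have h2 : (k : ℝ) < N := by linarith [(Nat.cast_nonneg k : (0 : ℝ) ≤ k)]
      exact_mod_cast h2
    · exact h.trans h1
  choose I hI using hex
  have h1 : ∀ l, q 0 ≤ q (I l) * Real.exp (l * I l) := fun l => by simpa using hI l 0
  have hp : ∀ l, 0 < q (I l) := fun l =>
    (mul_pos_iff_of_pos_right (Real.exp_pos _)).1 (h0.trans_le (h1 l))
  refine ⟨I, D, hI, fun l l' hll => ?_, fun l hl => by simpa [abs_of_nonneg hl] using key l _ (h1 l)⟩
  by_contra hn
  have hn' : (I l' : ℝ) < I l := by exact_mod_cast not_le.1 hn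
  rcases hll.eq_or_lt with rfl | hlt
  · exact lt_irrefl _ hn'
  have a1 := hI l (I l')
  have a2 := hI l' (I l)
  have a3 := mul_le_mul a1 a2 (mul_pos (hp l) (Real.exp_pos _)).le (mul_pos (hp l) (Real.exp_pos _)).le
  have a4 : Real.exp (l * I l' + l' * I l) ≤ Real.exp (l * I l + l' * I l') := by
    rw [Real.exp_add, Real.exp_add]
    refine le_of_mul_le_mul_left (a := q (I l) * q (I l')) (by linarith) (mul_pos (hp l) (hp l'))
  rw [Real.exp_le_exp] at a4
  nlinarith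

theorem gap {I J : ℝ → ℕ} (hI : Monotone I) (hJ : Monotone J) {D E : ℝ}
    (h1 : ∀ l, 0 ≤ l → 5 * (I l : ℝ) ≤ l + D) (h2 : ∀ l, 0 ≤ l → 5 * (J l : ℝ) ≤ l + E)
    {l₀ : ℝ} (h0 : 0 ≤ l₀) : ∃ l, l₀ ≤ l ∧ I (l - 1) = I (l + 1) ∧ J (l - 1) = J (l + 1) := by
  by_contra hn
  push Not at hn
  have key : ∀ K : ℕ, K ≤ I (l₀ + 2 * K) + J (l₀ + 2 * K) := by
    intro K
    induction K with
    | zero => exact Nat.zero_le _
    | succ K ih =>
      have h3 := hn (l₀ + 2 * K + 1) (by linarith [(Nat.cast_nonneg K : (0 : ℝ) ≤ K)])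
      rw [add_sub_cancel_right, show l₀ + 2 * K + 1 + 1 = l₀ + 2 * (K + 1 : ℕ) by push_cast; ring] at h3
      have h4 := hI (show l₀ + 2 * K ≤ l₀ + 2 * (K + 1 : ℕ) by push_cast; linarith)
      have h5 := hJ (show l₀ + 2 * K ≤ l₀ + 2 * (K + 1 : ℕ) by push_cast; linarith)
      omega
  obtain ⟨K, hK⟩ := exists_nat_gt (2 * l₀ + D + E)
  have h3 : (K : ℝ) ≤ I (l₀ + 2 * K) + J (l₀ + 2 * K) := by exact_mod_cast key K
  have h4 := h1 (l₀ + 2 * K) (by positivity)
  have h5 := h2 (l₀ + 2 * K) (by positivity)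
  linarith

theorem decay {q : ℕ → ℝ} {l : ℝ} {i : ℕ}
    (h1 : ∀ k, q k * Real.exp ((l - 1) * k) ≤ q i * Real.exp ((l - 1) * i))
    (h2 : ∀ k, q k * Real.exp ((l + 1) * k) ≤ q i * Real.exp ((l + 1) * i)) (k : ℕ) :
    q k * Real.exp (l * k) ≤ q i * Real.exp (l * i) * Real.exp (-1) ^ ((k : ℤ) - i).natAbs := by
  rw [← Real.exp_nat_mul, Nat.cast_natAbs, mul_assoc, ← Real.exp_add]
  push_cast
  rcases le_total (k : ℝ) i with h | h
  · have := mul_le_mul_of_nonneg_right (h1 k) (Real.exp_pos k).le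
    rw [mul_assoc, mul_assoc, ← Real.exp_add, ← Real.exp_add] at this
    rw [abs_of_nonpos (by linarith), show l * k = (l - 1) * k + k by ring,
      show l * i + -((k : ℝ) - i) * -1 = (l - 1) * i + k by ring]
    exact this
  · have := mul_le_mul_of_nonneg_right (h2 k) (Real.exp_pos (-k)).le
    rw [mul_assoc, mul_assoc, ← Real.exp_add, ← Real.exp_add] at this
    rw [abs_of_nonneg (by linarith), show l * k = (l + 1) * k + -k by ring,
      show l * i + ((k : ℝ) - i) * -1 = (l + 1) * i + -k by ring]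
    exact this

/-- a Newton polygon for the part of `u` above `m` -/
theorem Cost.poly {φ : ℤ → ℝ} (h : Cost φ) {u : ℤ → ℝ} (hu0 : ∀ j, 0 ≤ u j) {B : ℝ} (hB : ∀ j, u j ≤ B)
    {m : ℤ} (hm : 0 < u m) :
    ∃ (I : ℝ → ℕ) (D : ℝ), Monotone I ∧ (∀ l, 0 ≤ l → 5 * (I l : ℝ) ≤ l + D) ∧
      ∀ l, I (l - 1) = I (l + 1) → ∃ m₀, m ≤ m₀ ∧ ∀ j, m ≤ j →
        u j * Real.exp (-φ j + l * j) ≤
          u m₀ * Real.exp (-φ m₀ + l * m₀) * Real.exp (-1) ^ (j - m₀).natAbs := by
  obtain ⟨C, hC0, hC⟩ := h.quad m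
  have hB0 : 0 ≤ B := (hu0 0).trans (hB 0)
  obtain ⟨I, D, h1, h2, h3⟩ := polygon (q := fun k => u (m + k) * Real.exp (-φ (m + k)))
    (by simp only [Nat.cast_zero, add_zero]; positivity) (C := C + B) (by positivity) fun k => by
      have hk : (0 : ℝ) ≤ k := Nat.cast_nonneg k
      calc _ ≤ Real.exp B * Real.exp (C + C * k - 5 * k ^ 2) :=
            mul_le_mul ((hB _).trans (by linarith [Real.add_one_le_exp B])) (Real.exp_le_exp.2 (hC k))
              (Real.exp_pos _).le (Real.exp_pos _).le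
        _ ≤ _ := by
            rw [← Real.exp_add]
            exact Real.exp_le_exp.2 (by nlinarith)
  refine ⟨I, D, h2, h3, fun l hl => ⟨m + I (l + 1), by omega, fun j hj => ?_⟩⟩
  obtain ⟨k, rfl⟩ : ∃ k : ℕ, j = m + k := ⟨(j - m).toNat, by omega⟩
  have h4 := decay (q := fun k => u (m + k) * Real.exp (-φ (m + k))) (l := l) (i := I (l + 1))
    (fun k => by have := h1 (l - 1) k; rwa [hl] at this) (h1 (l + 1)) k
  have h5 := mul_le_mul_of_nonneg_right h4 (Real.exp_pos (l * m)).le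
  rw [show m + k - (m + I (l + 1)) = (k : ℤ) - I (l + 1) by ring]
  simp only [Real.exp_add, Int.cast_add, Int.cast_natCast, mul_add]
  linarith

theorem hasSum_rho {ρ : ℝ} (h0 : 0 ≤ ρ) (h1 : ρ < 1) (c : ℤ) :
    HasSum (fun j : ℤ => ρ ^ (j - c).natAbs) ((1 + ρ) / (1 - ρ)) := by
  have h2 := hasSum_geometric_of_lt_one h0 h1
  have h3 : HasSum (fun j : ℤ => ρ ^ j.natAbs) ((1 - ρ)⁻¹ + ρ * (1 - ρ)⁻¹) := by
    refine HasSum.of_nat_of_neg_add_one (by simpa using h2) ?_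
    have e : (fun n : ℕ => ρ ^ (-((n : ℤ) + 1)).natAbs) = fun n => ρ * ρ ^ n := by
      funext n
      rw [show (-((n : ℤ) + 1)).natAbs = n + 1 by omega, pow_succ']
    rw [e]
    exact h2.mul_left ρ
  rw [show (1 + ρ) / (1 - ρ) = (1 - ρ)⁻¹ + ρ * (1 - ρ)⁻¹ by ring]
  exact ((Equiv.subRight c).hasSum_iff (f := fun j : ℤ => ρ ^ j.natAbs)).2 h3

/-- the terms on the far side of the reference point -/
theorem Cost.side {φ : ℤ → ℝ} (h : Cost φ) {L : ℤ} {l : ℝ} (hl : ∀ i, |i| ≤ L → inc φ i ≤ l)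
    {s j : ℤ} (hs : -L ≤ s) (hL : 0 ≤ L) (hj : s < j) {f : ℤ → ℝ} {B : ℝ} (hB : ∀ j, f j ≤ B)
    (hsm : B * Real.exp (inc φ s - l) ≤ Real.exp (-1) * f s) (hB0 : 0 ≤ B) :
    f j * Real.exp (φ j - l * j) ≤ Real.exp (-1) * (f s * Real.exp (φ s - l * s)) ∨
      (L < j ∧ ∀ n : ℕ, φ j - φ (j + n) + l * n ≤ 0) := by
  refine (h.dich hl hs hL hj).imp_left fun h1 => ?_
  calc _ ≤ B * Real.exp (inc φ s - l + (φ s - l * s)) :=
        mul_le_mul (hB j) (Real.exp_le_exp.2 (by linarith)) (Real.exp_pos _).le hB0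
    _ = B * Real.exp (inc φ s - l) * Real.exp (φ s - l * s) := by rw [Real.exp_add, mul_assoc]
    _ ≤ _ := by rw [← mul_assoc]; exact mul_le_mul_of_nonneg_right hsm (Real.exp_pos _).le

theorem exists_small {B c a : ℝ} (hc : 0 < c) : ∃ l₀, ∀ l, l₀ ≤ l → B * Real.exp (a - l) ≤ c := by
  have h : Tendsto (fun l => B * Real.exp (a - l)) atTop (𝓝 (B * 0)) :=
    (Real.tendsto_exp_atBot.comp (tendsto_atBot_add_const_left _ a tendsto_neg_atTop_atBot)).const_mul B
  rw [mul_zero] at h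
  exact eventually_atTop.1 (h.eventually (ge_mem_nhds hc))

theorem exists_tail {f : ℤ → ℝ} (hf : Summable f) {ε : ℝ} (hε : 0 < ε) :
    ∀ᶠ s : Finset ℤ in atTop, ∃ a ≤ ε, HasSum (fun j => if j ∈ s then 0 else f j) a := by
  filter_upwards [(tendsto_tsum_compl_atTop_zero f).eventually (ge_mem_nhds hε)] with s hs
  refine ⟨_, hs, ?_⟩
  have := (hasSum_subtype_iff_indicator (s := {j | j ∉ s})).1 (hf.subtype {j | j ∉ s}).hasSum
  have e : (fun j => if j ∈ s then 0 else f j) = {j | j ∉ s}.indicator f := by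
    funext j
    by_cases hj : j ∈ s <;> simp [hj]
  rw [e]
  exact this

theorem le_of_summable_sq {f : ℤ → ℝ} (hf : Summable fun j => f j ^ 2) : ∃ B, 0 ≤ B ∧ ∀ j, f j ≤ B := by
  refine ⟨1 + ∑' j, f j ^ 2, by positivity, fun j => ?_⟩
  have := hf.le_tsum j fun i _ => sq_nonneg _
  nlinarith [sq_nonneg (f j - 1)]

/-- The key estimate: on some diagonal one term dominates all the others. -/
theorem Cost.dominant {φ : ℤ → ℝ} (h : Cost φ) {f u : ℤ → ℝ} (hf0 : ∀ j, 0 ≤ f j) (hu0 : ∀ j, 0 ≤ u j)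
    (hf : Summable fun j => f j ^ 2) (hu : Summable fun j => u j ^ 2) {s m : ℤ} (hsm : s ≤ m)
    (hs : 0 < f s) (hm : 0 < u m) :
    ∃ (n : ℕ) (j₀ : ℤ) (b : ℤ → ℝ) (a : ℝ), HasSum b a ∧
      a < f j₀ * u (j₀ + n) * Real.exp (φ j₀ - φ (j₀ + n)) ∧
      ∀ j, 0 ≤ b j ∧ (j ≠ j₀ → f j * u (j + n) * Real.exp (φ j - φ (j + n)) ≤ b j) := by
  obtain ⟨Bf, hBf0, hBf⟩ := le_of_summable_sq hf
  obtain ⟨Bu, hBu0, hBu⟩ := le_of_summable_sq hu
  obtain ⟨I, D, hI, hID, hI'⟩ := h.poly hu0 hBu hm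
  obtain ⟨J, E, hJ, hJE, hJ'⟩ := h.refl.poly (u := fun j => f (-j)) (fun j => hf0 _) (fun j => hBf _)
    (m := -s) (by simpa using hs)
  set κ := f s * u m * Real.exp (φ s - φ m) with hκ
  have hκ0 : 0 < κ := by positivity
  obtain ⟨t, ⟨af, haf, hf'⟩, au, hau, hu'⟩ :=
    ((exists_tail hf (half_pos hκ0)).and (exists_tail hu (half_pos hκ0))).exists
  obtain ⟨L, hL⟩ := ((insert s (insert m t)).image fun j => |j|).bddAbove
  have hL' : ∀ j ∈ insert s (insert m t), |j| ≤ L := fun j hj =>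
    hL (mem_coe.2 (mem_image_of_mem _ hj))
  have hLs := abs_le.1 (hL' s (by simp))
  have hLm := abs_le.1 (hL' m (by simp))
  have hL0 : 0 ≤ L := by omega
  obtain ⟨l₁, hl₁⟩ := ((Icc (-L - 1) L).image (inc φ)).bddAbove
  have hl₁' : ∀ i, -L - 1 ≤ i → i ≤ L → inc φ i ≤ l₁ := fun i h1 h2 =>
    hl₁ (mem_coe.2 (mem_image_of_mem _ (mem_Icc.2 ⟨h1, h2⟩)))
  set ρ := Real.exp (-1) with hρ
  have hρ0 : 0 < ρ := Real.exp_pos _
  have hρ1 : ρ ≤ 3 / 8 := by
    rw [hρ, Real.exp_neg, inv_le_comm₀ (Real.exp_pos 1) (by norm_num)]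
    linarith [Real.exp_one_gt_d9]
  obtain ⟨l₂, hl₂⟩ := exists_small (B := Bf) (a := inc φ s) (mul_pos hρ0 hs)
  obtain ⟨l₃, hl₃⟩ := exists_small (B := Bu) (a := inc (fun j => -φ (-j)) (-m)) (mul_pos hρ0 hm)
  obtain ⟨l, hl, hIl, hJl⟩ := gap hI hJ hID hJE (l₀ := max (max 0 l₁) (max l₂ l₃))
    (le_max_of_le_left (le_max_left _ _))
  simp only [max_le_iff] at hl
  obtain ⟨⟨hl0, hl1⟩, hl2, hl3⟩ := hl
  obtain ⟨m₀, hm₀, hQ⟩ := hI' l hIl
  obtain ⟨s₀, hs₀, hP⟩ := hJ' l hJl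
  set P : ℤ → ℝ := fun j => f j * Real.exp (φ j - l * j) with hPdef
  set Q : ℤ → ℝ := fun j => u j * Real.exp (-φ j + l * j) with hQdef
  have hP0 : ∀ j, 0 ≤ P j := fun j => mul_nonneg (hf0 j) (Real.exp_pos _).le
  have hQ0 : ∀ j, 0 ≤ Q j := fun j => mul_nonneg (hu0 j) (Real.exp_pos _).le
  set j₀ := -s₀ with hj₀
  have hP' : ∀ j, j ≤ s → P j ≤ P j₀ * ρ ^ (j - j₀).natAbs := fun j hj => by
    have := hP (-j) (by omega)
    rw [show (-j - s₀).natAbs = (j - j₀).natAbs by omega] at this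
    simp only [neg_neg, Int.cast_neg, mul_neg, ← sub_eq_add_neg] at this
    simpa only [hPdef, hj₀, Int.cast_neg, mul_neg, sub_neg_eq_add] using this
  have hQ' : ∀ j, m ≤ j → Q j ≤ Q m₀ * ρ ^ (j - m₀).natAbs := hQ
  have hpow : ∀ k : ℕ, ρ ^ k ≤ 1 := fun k => pow_le_one₀ hρ0.le (by linarith)
  have hPs : P s ≤ P j₀ := (hP' s le_rfl).trans (mul_le_of_le_one_right (hP0 _) (hpow _))
  have hQm : Q m ≤ Q m₀ := (hQ' m le_rfl).trans (mul_le_of_le_one_right (hQ0 _) (hpow _))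
  obtain ⟨n, hn⟩ : ∃ n : ℕ, m₀ = j₀ + n := ⟨(m₀ - j₀).toNat, by omega⟩
  have hterm : ∀ j, f j * u (j + n) * Real.exp (φ j - φ (j + n)) =
      P j * Q (j + n) * Real.exp (-(l * n)) := fun j => by
    simp only [hPdef, hQdef]
    rw [show φ j - φ (j + n) = (φ j - l * j) + (-φ (j + n) + l * ((j + n : ℤ) : ℝ)) + -(l * n) by
      push_cast; ring, Real.exp_add, Real.exp_add]
    ring
  set T := P j₀ * Q m₀ with hT
  have hκT : κ ≤ T := by
    refine le_trans ?_ (mul_le_mul hPs hQm (hQ0 _) (hP0 _))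
    have e : P s * Q m = f s * u m * Real.exp (φ s - φ m + l * (m - s)) := by
      simp only [hPdef, hQdef]
      rw [show φ s - φ m + l * (m - s) = (φ s - l * s) + (-φ m + l * m) by ring,
        Real.exp_add (φ s - l * s)]
      ring
    rw [e, hκ]
    have : (s : ℝ) ≤ m := by exact_mod_cast hsm
    exact mul_le_mul_of_nonneg_left (Real.exp_le_exp.2 (by nlinarith)) (by positivity)
  have hT0 : 0 < T := hκ0.trans_le hκT
  set F : ℤ → ℝ := fun j => if j ∈ t then 0 else f j ^ 2 with hF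
  set U : ℤ → ℝ := fun j => if j ∈ t then 0 else u j ^ 2 with hU
  have hF0 : ∀ j, 0 ≤ F j := fun j => by simp only [hF]; split_ifs <;> positivity
  have hU0 : ∀ j, 0 ≤ U j := fun j => by simp only [hU]; split_ifs <;> positivity
  have hnt : ∀ j, L < |j| → j ∉ t := fun j hj hjt => absurd (hL' j (by simp [hjt])) (not_le.2 hj)
  have hfar : ∀ j, L < |j| → L < |j + n| → φ j - φ (j + n) + l * n ≤ 0 →
      P j * Q (j + n) ≤ (F j + U (j + n)) / 2 := fun j h1 h2 h3 => by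
    have e : P j * Q (j + n) = f j * u (j + n) * Real.exp (φ j - φ (j + n) + l * n) := by
      rw [Real.exp_add (φ j - φ (j + n)), ← mul_assoc (f j * u (j + n)), hterm,
        mul_assoc (P j * Q (j + n)), ← Real.exp_add]; simp
    rw [e]
    simp only [hF, hU, hnt _ h1, hnt _ h2, if_false]
    have := mul_le_of_le_one_right (mul_nonneg (hf0 j) (hu0 (j + n))) (Real.exp_le_one_iff.2 h3)
    nlinarith [sq_nonneg (f j - u (j + n))]
  have hbd : ∀ j, j ≠ j₀ →
      P j * Q (j + n) ≤ T * ρ * ρ ^ (j - j₀).natAbs + (F j + U (j + n)) / 2 := by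
    intro j hj
    have hn1 : 0 ≤ T * ρ * ρ ^ (j - j₀).natAbs := by positivity
    have hn2 : 0 ≤ (F j + U (j + n)) / 2 := by linarith [hF0 j, hU0 (j + n)]
    have eq : (j + n - m₀).natAbs = (j - j₀).natAbs := by omega
    rcases lt_or_ge s j with h1 | h1
    · rcases h.side (fun i hi => (hl₁' i (by linarith [(abs_le.1 hi).1]) (abs_le.1 hi).2).trans hl1)
        hLs.1 hL0 h1 hBf (hl₂ l hl2) hBf0 with h2 | h2
      · have h3 := hQ' (j + n) (by omega)
        rw [eq] at h3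
        have h4 : P j ≤ ρ * P j₀ := le_trans h2 (mul_le_mul_of_nonneg_left hPs hρ0.le)
        have := mul_le_mul h4 h3 (hQ0 _) (mul_nonneg hρ0.le (hP0 _))
        rw [hT]; linarith
      · have := hfar j (lt_abs.2 (Or.inl h2.1)) (lt_abs.2 (Or.inl (by omega))) (h2.2 n)
        linarith
    rcases lt_or_ge (j + n) m with h2 | h2
    · rcases h.refl.side (L := L) (l := l) (fun i hi => by
          rw [inc_refl]
          exact (hl₁' _ (by linarith [(abs_le.1 hi).2]) (by linarith [(abs_le.1 hi).1])).trans hl1)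
        (s := -m) (j := -(j + n)) (by omega) hL0 (by omega) (f := fun j => u (-j)) (fun j => hBu _)
        (by simpa using hl₃ l hl3) hBu0 with h3 | h3
      · simp only [neg_neg, Int.cast_neg, mul_neg, sub_neg_eq_add] at h3
        have h4 : Q (j + n) ≤ ρ * Q m₀ := le_trans h3 (mul_le_mul_of_nonneg_left hQm hρ0.le)
        have := mul_le_mul (hP' j h1) h4 (hQ0 _) (mul_nonneg (hP0 _) (pow_pos hρ0 _).le)
        rw [hT]; linarith
      · have h4 := h3.2 n
        simp only [neg_neg, show -(-(j + n) + n) = j by ring] at h4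
        have := hfar j (lt_abs.2 (Or.inr (by omega))) (lt_abs.2 (Or.inr h3.1)) (by linarith)
        linarith
    · have h3 := hQ' (j + n) h2
      rw [eq] at h3
      have h4 := mul_le_mul (hP' j h1) h3 (hQ0 _) (mul_nonneg (hP0 _) (pow_pos hρ0 _).le)
      have h5 : ρ ^ (j - j₀).natAbs ≤ ρ := pow_le_of_le_one hρ0.le (by linarith) (by omega)
      have h6 := mul_le_mul_of_nonneg_left h5 (mul_pos hT0 (pow_pos hρ0 (j - j₀).natAbs)).le
      rw [hT] at h6 ⊢
      linarith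
  have hsum := ((hasSum_ite_sub_hasSum ((hasSum_rho hρ0.le (by linarith) j₀).mul_left (T * ρ)) j₀).add
    ((hf'.add (((Equiv.addRight (n : ℤ)).hasSum_iff (f := U)).2 hu')).div_const 2)).mul_right
      (Real.exp (-(l * n)))
  refine ⟨n, j₀, _, _, hsum, ?_, fun j => ⟨?_, fun hj => ?_⟩⟩
  · rw [hterm, ← hn]
    refine mul_lt_mul_of_pos_right ?_ (Real.exp_pos _)
    simp only [sub_self, Int.natAbs_zero, pow_zero, mul_one]
    have h1 : ρ * ((1 + ρ) / (1 - ρ)) - ρ ≤ 9 / 20 := by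
      rw [← mul_div_assoc, sub_le_iff_le_add, div_le_iff₀ (by linarith)]
      nlinarith
    have h2 := mul_le_mul_of_nonneg_left h1 hT0.le
    rw [← hT]
    nlinarith
  · refine mul_nonneg (add_nonneg ?_ ?_) (Real.exp_pos _).le
    · split_ifs <;> positivity
    · exact div_nonneg (add_nonneg (hF0 _) (hU0 _)) two_pos.le
  · rw [hterm]
    refine mul_le_mul_of_nonneg_right ?_ (Real.exp_pos _).le
    rw [if_neg hj]
    exact hbd j hj

/-- the support of `f` lies strictly above the support of `u` -/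
theorem Cost.core {φ : ℤ → ℝ} (h : Cost φ) {f u : ℤ → ℂ} (hf : Summable fun j => ‖f j‖ ^ 2)
    (hu : Summable fun j => ‖u j‖ ^ 2)
    (h0 : ∀ n : ℕ, HasSum (fun j => f j * u (j + n) * (Real.exp (φ j - φ (j + n)) : ℝ)) 0)
    {s m : ℤ} (hsm : s ≤ m) : f s = 0 ∨ u m = 0 := by
  by_contra hn
  push Not at hn
  obtain ⟨n, j₀, b, a, hb, ha, hle⟩ := h.dominant (fun j => norm_nonneg (f j)) (fun j => norm_nonneg (u j))
    hf hu hsm (norm_pos_iff.2 hn.1) (norm_pos_iff.2 hn.2)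
  have hn : ∀ j, ‖f j * u (j + n) * (Real.exp (φ j - φ (j + n)) : ℝ)‖ =
      ‖f j‖ * ‖u (j + n)‖ * Real.exp (φ j - φ (j + n)) := fun j => by
    rw [norm_mul, norm_mul, Complex.norm_real, Real.norm_of_nonneg (Real.exp_pos _).le]
  have h1 := (hasSum_ite_sub_hasSum (h0 n) j₀).norm_le_of_bounded hb fun j => by
    split_ifs with hj
    · simpa using (hle j).1
    · rw [hn]; exact (hle j).2 hj
  rw [zero_sub, norm_neg, hn] at h1
  linarith

end Crest.Agent.R113b
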