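import Crest.Prelude.Def_TwoAdicShift
import Crest.Agent.R113b.Uni

/-!
# Row 113, S0150: the weights along the 2-adic odometer

The cost `co j x` jumps by `40 * 2 ^ n` at two positions of size about `± 2 ^ n` that move one step to
the left when `x` is replaced by `x + 1` (unless the last `n` digits of `x` are all `1`).
-/

set_option autoImplicit false

namespace Crest.Agent.R113b

open Filter Topology Finset Crest.AnalysisR.TwoAdic

attribute [local instance] Crest.AnalysisR.TwoAdic.borelTwoAdic Crest.AnalysisR.TwoAdic.borelSpace_twoAdic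

/-- the last `n` binary digits -/
noncomputable def dig (n : ℕ) (x : ℤ_[2]) : ℤ := ((PadicInt.toZModPow n x).val : ℤ)

theorem dig_nonneg (n : ℕ) (x : ℤ_[2]) : 0 ≤ dig n x := Int.natCast_nonneg _

theorem dig_lt (n : ℕ) (x : ℤ_[2]) : dig n x < 2 ^ n := by
  have := ZMod.val_lt (PadicInt.toZModPow n x)
  unfold dig
  exact_mod_cast this

theorem toZModPow_eq_zero {n : ℕ} {x : ℤ_[2]} :
    PadicInt.toZModPow n x = 0 ↔ ‖x‖ ≤ ((2 : ℕ) : ℝ) ^ (-n : ℤ) := by
  rw [PadicInt.norm_le_pow_iff_mem_span_pow, ← PadicInt.ker_toZModPow, RingHom.mem_ker]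

theorem measurable_dig (n : ℕ) : Measurable (dig n) := by
  refine (IsLocallyConstant.continuous ((IsLocallyConstant.iff_eventually_eq _).2 fun x => ?_)).measurable
  filter_upwards [Metric.closedBall_mem_nhds x (show (0 : ℝ) < ((2 : ℕ) : ℝ) ^ (-n : ℤ) by positivity)]
    with y hy
  rw [Metric.mem_closedBall, dist_eq_norm, ← toZModPow_eq_zero, map_sub, sub_eq_zero] at hy
  rw [dig, dig, hy]

theorem dig_add_one {x : ℤ_[2]} (hx : x ≠ -1) : ∃ N, ∀ n, N ≤ n → dig n (x + 1) = dig n x + 1 := by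
  have h0 : 0 < ‖x + 1‖ := norm_pos_iff.2 fun h => hx (eq_neg_of_add_eq_zero_left h)
  obtain ⟨N, hN⟩ := exists_pow_lt_of_lt_one h0 (show (1 / 2 : ℝ) < 1 by norm_num)
  refine ⟨N + 1, fun n hn => ?_⟩
  have h1 : PadicInt.toZModPow n (x + 1) ≠ 0 := by
    rw [Ne, toZModPow_eq_zero, not_le]
    refine lt_of_le_of_lt ?_ hN
    rw [zpow_neg, zpow_natCast, ← inv_pow, Nat.cast_ofNat, ← one_div]
    exact pow_le_pow_of_le_one (by norm_num) (by norm_num) (by omega)
  have : Fact (1 < 2 ^ n) := ⟨Nat.one_lt_two_pow (by omega)⟩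
  rw [map_add, map_one] at h1
  have h2 := ZMod.val_lt (PadicInt.toZModPow n x)
  have h3 : (PadicInt.toZModPow n x).val + (1 : ZMod (2 ^ n)).val < 2 ^ n := by
    rw [ZMod.val_one]
    by_contra hn
    apply h1
    rw [← ZMod.val_eq_zero, ZMod.val_add, ZMod.val_one,
      show (PadicInt.toZModPow n x).val + 1 = 2 ^ n by omega, Nat.mod_self]
  rw [dig, dig, map_add, map_one, ZMod.val_add_of_lt h3, ZMod.val_one]
  push_cast
  ring

/-- the `n`-th jump -/
def jump (n : ℕ) (r j : ℤ) : ℝ :=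
  if 2 ^ (n + 1) - r - 1 ≤ j ∨ j ≤ -2 ^ n - r - 1 then 40 * 2 ^ n else 0

theorem jump_nonneg (n : ℕ) (r j : ℤ) : 0 ≤ jump n r j := by
  unfold jump; split_ifs <;> positivity

theorem jump_on {n : ℕ} {r j : ℤ} (h0 : 0 ≤ r) (h1 : r < 2 ^ n)
    (hj : 2 ^ (n + 1) - 1 ≤ j ∨ j ≤ -2 ^ (n + 1)) : jump n r j = 40 * 2 ^ n := by
  rw [jump, if_pos]
  rw [pow_succ] at hj ⊢
  omega

theorem jump_off {n : ℕ} {r j : ℤ} (h0 : 0 ≤ r) (h1 : r < 2 ^ n) (hj : j.natAbs ≤ n) :
    jump n r j = 0 := by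
  have : (n : ℤ) < 2 ^ n := by exact_mod_cast Nat.lt_two_pow_self
  rw [jump, if_neg]
  rw [pow_succ]
  omega

/-- the cost `- log β` -/
noncomputable def co (x : ℤ_[2]) (j : ℤ) : ℝ := 10 + ∑ n ∈ range j.natAbs, jump n (dig n x) j

theorem co_eq (x : ℤ_[2]) (j : ℤ) {N : ℕ} (hN : j.natAbs ≤ N) :
    co x j = 10 + ∑ n ∈ range N, jump n (dig n x) j := by
  rw [co, sum_subset (range_subset_range.2 hN)]
  intro n _ hn
  exact jump_off (dig_nonneg _ _) (dig_lt _ _) (by simpa using hn)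

theorem co_le (x : ℤ_[2]) {i j : ℤ} (h : 0 ≤ i ∧ i ≤ j ∨ j ≤ i ∧ i < 0) : co x i ≤ co x j := by
  rw [co_eq x i (N := j.natAbs) (by omega), co]
  refine add_le_add_right (sum_le_sum fun n _ => ?_) _
  have h0 := dig_nonneg n x
  have h1 := dig_lt n x
  have h2 : (0 : ℤ) < 2 ^ n := by positivity
  by_cases hi : 2 ^ (n + 1) - dig n x - 1 ≤ i ∨ i ≤ -2 ^ n - dig n x - 1
  · rw [jump, jump, if_pos hi, if_pos]
    rw [pow_succ] at hi ⊢
    omega
  · rw [jump, if_neg hi]; exact jump_nonneg _ _ _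

theorem co_ge (x : ℤ_[2]) (j : ℤ) {m : ℕ} (hm : (m : ℤ) = j + 1 ∨ (m : ℤ) = -j) : 10 * (m : ℝ) ≤ co x j := by
  have hs : 0 ≤ ∑ n ∈ range j.natAbs, jump n (dig n x) j := sum_nonneg fun _ _ => jump_nonneg _ _ _
  rcases le_or_gt m 1 with h | h
  · have : (m : ℝ) ≤ 1 := by exact_mod_cast h
    rw [co]; linarith
  obtain ⟨k, hk⟩ : ∃ k, Nat.log 2 m = k + 1 := ⟨Nat.log 2 m - 1, by
    have := Nat.log_pos (b := 2) one_lt_two h
    omega⟩
  have h1 := Nat.pow_log_le_self 2 (show m ≠ 0 by omega)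
  have h2 := Nat.lt_pow_succ_log_self one_lt_two m
  rw [hk] at h1 h2
  have h1' : (2 : ℤ) ^ (k + 1) ≤ m := by exact_mod_cast h1
  have h2' : (m : ℝ) ≤ 2 ^ (k + 1 + 1) := by exact_mod_cast h2.le
  rw [co_eq x j (le_max_left _ (k + 1))]
  have h3 := single_le_sum (f := fun n => jump n (dig n x) j) (s := range (max j.natAbs (k + 1)))
    (fun _ _ => jump_nonneg _ _ _) (a := k) (mem_range.2 (by omega))
  rw [jump_on (dig_nonneg _ _) (dig_lt _ _) (by omega)] at h3
  rw [pow_succ, pow_succ] at h2'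
  linarith

theorem co_zero (x : ℤ_[2]) : co x 0 = 10 := by simp [co]

theorem measurable_co (j : ℤ) : Measurable fun x => co x j :=
  measurable_const.add (Finset.measurable_sum _ fun n _ =>
    (measurable_from_top (f := fun r => jump n r j)).comp (measurable_dig n))

theorem co_add_one {x : ℤ_[2]} (hx : x ≠ -1) :
    ∃ J : ℕ, ∀ j : ℤ, J ≤ j.natAbs → co (x + 1) (j - 1) = co x j := by
  obtain ⟨N, hN⟩ := dig_add_one hx
  refine ⟨2 ^ N, fun j hj => ?_⟩
  rw [co_eq (x + 1) (j - 1) (N := j.natAbs + 1) (by omega), co_eq x j (N := j.natAbs + 1) (by omega)]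
  congr 1
  refine sum_congr rfl fun n _ => ?_
  rcases le_or_gt N n with h | h
  · rw [hN n h, jump, jump]
    refine if_congr ?_ rfl rfl
    omega
  · have h1 : (2 : ℤ) ^ (n + 1) ≤ j.natAbs := by
      exact_mod_cast (Nat.pow_le_pow_right two_pos h).trans hj
    rw [jump_on (dig_nonneg _ _) (dig_lt _ _) (by omega),
      jump_on (dig_nonneg _ _) (dig_lt _ _) (by omega)]

/-- the potential -/
noncomputable def ph (x : ℤ_[2]) (j : ℤ) : ℝ :=
  ∑ i ∈ range j.toNat, co x i - ∑ i ∈ range (-j).toNat, co x (-i - 1)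

theorem inc_ph (x : ℤ_[2]) (j : ℤ) : inc (ph x) j = co x j := by
  rcases le_or_gt 0 j with h | h
  · lift j to ℕ using h
    rw [inc, ph, ph, show ((j : ℤ) + 1).toNat = j + 1 by omega, show (-((j : ℤ) + 1)).toNat = 0 by omega,
      show (-(j : ℤ)).toNat = 0 by omega, Int.toNat_natCast, sum_range_succ]
    ring
  · obtain ⟨k, rfl⟩ : ∃ k : ℕ, j = -k - 1 := ⟨(-j - 1).toNat, by omega⟩
    rw [inc, ph, ph, show (-(k : ℤ) - 1 + 1).toNat = 0 by omega,
      show (-(-(k : ℤ) - 1 + 1)).toNat = k by omega, show (-(k : ℤ) - 1).toNat = 0 by omega,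
      show (-(-(k : ℤ) - 1)).toNat = k + 1 by omega, sum_range_succ]
    ring

theorem measurable_ph (j : ℤ) : Measurable fun x => ph x j :=
  (Finset.measurable_sum _ fun _ _ => measurable_co _).sub
    (Finset.measurable_sum _ fun _ _ => measurable_co _)

theorem cost_ph (x : ℤ_[2]) : Cost (ph x) where
  mono i j hi hij := by rw [inc_ph, inc_ph]; exact co_le x (Or.inl ⟨hi, hij⟩)
  anti i j hij hj := by rw [inc_ph, inc_ph]; exact co_le x (Or.inr ⟨hij, hj⟩)
  lbp i hi := by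
    lift i to ℕ using hi
    rw [inc_ph]
    simpa using co_ge x i (m := i + 1) (Or.inl (by simp))
  lbn i hi := by
    obtain ⟨k, rfl⟩ : ∃ k : ℕ, i = -k := ⟨(-i).toNat, by omega⟩
    rw [inc_ph]
    simpa using co_ge x (-k) (m := k) (Or.inr (by simp))

/-- the logarithm of the unnormalised weight of `V` -/
noncomputable def ps (x : ℤ_[2]) (j : ℤ) : ℝ := ph x j - ph (x + 1) (j - 1)

theorem measurable_ps (j : ℤ) : Measurable fun x => ps x j :=
  (measurable_ph j).sub ((measurable_ph (j - 1)).comp (measurable_add_const 1))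

theorem ps_bdd {x : ℤ_[2]} (hx : x ≠ -1) : ∃ C, ∀ j, ps x j ≤ C := by
  obtain ⟨J, hJ⟩ := co_add_one hx
  have h1 : ∀ j : ℤ, J ≤ j.natAbs → ps x (j + 1) = ps x j := fun j hj => by
    have h2 := inc_ph x j
    have h3 := inc_ph (x + 1) (j - 1)
    rw [hJ j hj] at h3
    simp only [inc, ps, sub_add_cancel, add_sub_cancel_right] at h2 h3 ⊢
    linarith
  obtain ⟨C, hC⟩ := ((Icc (-J : ℤ) J).image (ps x)).bddAbove
  have hC' : ∀ j : ℤ, -J ≤ j → j ≤ J → ps x j ≤ C := fun j h1 h2 =>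
    hC (mem_coe.2 (mem_image_of_mem _ (mem_Icc.2 ⟨h1, h2⟩)))
  refine ⟨C, fun j => ?_⟩
  rcases le_total j (-J) with h | h
  · exact (le_of_steps h fun i _ hi => (h1 i (by omega)).ge).trans (hC' _ le_rfl (by omega))
  rcases le_total j J with h' | h'
  · exact hC' j h h'
  · have := le_of_steps (g := fun i => -ps x i) h' fun i hi _ => by rw [h1 i (by omega)]
    linarith [hC' J (by omega) le_rfl]

noncomputable def cc (x : ℤ_[2]) : ℝ := ⨅ i, Real.exp (-ps x i)

/-- the weights of `V` -/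
noncomputable def bb (j : ℤ) (x : ℤ_[2]) : ℝ := cc x * Real.exp (ps x j)

theorem cc_nonneg (x : ℤ_[2]) : 0 ≤ cc x := le_ciInf fun _ => (Real.exp_pos _).le

theorem measurable_bb (j : ℤ) : Measurable (bb j) :=
  (Measurable.iInf fun i => (measurable_ps i).neg.exp).mul (measurable_ps j).exp

theorem bb_nonneg (j : ℤ) (x : ℤ_[2]) : 0 ≤ bb j x := mul_nonneg (cc_nonneg x) (Real.exp_pos _).le

theorem bb_le_one (j : ℤ) (x : ℤ_[2]) : bb j x ≤ 1 := by
  have : cc x ≤ Real.exp (-ps x j) :=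
    ciInf_le ⟨0, by rintro _ ⟨i, rfl⟩; exact (Real.exp_pos _).le⟩ j
  refine (mul_le_mul_of_nonneg_right this (Real.exp_pos _).le).trans ?_
  rw [← Real.exp_add]; simp

theorem bb_pos {x : ℤ_[2]} (hx : x ≠ -1) (j : ℤ) : 0 < bb j x := by
  obtain ⟨C, hC⟩ := ps_bdd hx
  exact mul_pos ((Real.exp_pos (-C)).trans_le
    (le_ciInf fun i => Real.exp_le_exp.2 (neg_le_neg (hC i)))) (Real.exp_pos _)

/-- the weights of `S` -/
noncomputable def be (j : ℤ) (x : ℤ_[2]) : ℝ := Real.exp (ph x j - ph x (j + 1))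

theorem measurable_be (j : ℤ) : Measurable (be j) := ((measurable_ph j).sub (measurable_ph _)).exp

theorem be_zero (x : ℤ_[2]) : be 0 x = Real.exp (-10) := by
  rw [be, ← co_zero x, ← inc_ph, inc, neg_sub]

theorem bb_be (j : ℤ) (x : ℤ_[2]) : bb (j + 1) x * be j x = be (j + -1) (x + 1) * bb j x := by
  simp only [bb, be, ps, mul_assoc, mul_left_comm _ (cc x), ← Real.exp_add, add_sub_cancel_right,
    ← sub_eq_add_neg, sub_add_cancel]
  congr 2
  ring

end Crest.Agent.R113b
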