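import Crest.Agent.R113b.Seq
import Crest.Agent.R113b.Wt

/-!
# Row 113, S0150: decomposable operators on `L²(ℤ₂; ℓ²(ℤ))`
-/

set_option autoImplicit false

namespace Crest.Agent.R113b

open Filter Topology MeasureTheory Crest.AnalysisR.TwoAdic
open scoped InnerProductSpace

attribute [local instance] Crest.AnalysisR.TwoAdic.borelTwoAdic Crest.AnalysisR.TwoAdic.borelSpace_twoAdic

instance : haarTwoAdic.IsAddHaarMeasure := by unfold haarTwoAdic; infer_instance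

instance : IsProbabilityMeasure haarTwoAdic :=
  ⟨by simpa [haarTwoAdic] using Measure.addHaarMeasure_self (K₀ := (⊤ : TopologicalSpace.PositiveCompacts ℤ_[2]))⟩

theorem ae_add (a : ℤ_[2]) {p : ℤ_[2] → Prop} (h : ∀ᵐ x ∂haarTwoAdic, p x) :
    ∀ᵐ x ∂haarTwoAdic, p (x + a) :=
  (measurePreserving_add_right haarTwoAdic a).quasiMeasurePreserving.ae h

theorem ae_of_add (a : ℤ_[2]) {p : ℤ_[2] → Prop} (h : ∀ᵐ x ∂haarTwoAdic, p (x + a)) :
    ∀ᵐ x ∂haarTwoAdic, p x := by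
  simpa using ae_add (-a) h

theorem haar_singleton (a : ℤ_[2]) : haarTwoAdic {a} = 0 := by
  have : (𝓝[≠] (0 : ℤ_[2])).NeBot := by
    rw [← mem_closure_iff_nhdsWithin_neBot]
    refine mem_closure_of_tendsto (tendsto_pow_atTop_nhds_zero_of_norm_lt_one
      (x := ((2 : ℕ) : ℤ_[2])) (by rw [PadicInt.norm_p]; norm_num)) (Eventually.of_forall fun n => ?_)
    simp
  exact measure_singleton a

theorem ergodic_add_one : Ergodic (fun x : ℤ_[2] => 1 + x) haarTwoAdic :=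
  ergodic_add_left_of_denseRange_nsmul (by simpa using PadicInt.denseRange_natCast (p := 2)) _

/-- `T` acts fibrewise by `A` -/
def IsFib (T : fibreSpace →L[ℂ] fibreSpace) (A : ℤ_[2] → seqHilbert →L[ℂ] seqHilbert) : Prop :=
  ∀ f : fibreSpace, ∀ᵐ x ∂haarTwoAdic, T f x = A x (f x)

theorem IsFib.norm_le {T : fibreSpace →L[ℂ] fibreSpace} {A : ℤ_[2] → seqHilbert →L[ℂ] seqHilbert}
    (h : IsFib T A) {C : ℝ} (hC : 0 ≤ C) (hA : ∀ x, ‖A x‖ ≤ C) : ‖T‖ ≤ C := by
  refine T.opNorm_le_bound hC fun f => Lp.norm_le_mul_norm_of_ae_le_mul ?_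
  filter_upwards [h f] with x hx
  rw [hx]
  exact (A x).le_of_opNorm_le (hA x) _

theorem exists_isFib (A : ℤ_[2] → seqHilbert →L[ℂ] seqHilbert) {C : ℝ} (hA : ∀ x, ‖A x‖ ≤ C)
    (hm : ∀ f : fibreSpace, AEStronglyMeasurable (fun x => A x (f x)) haarTwoAdic) :
    ∃ T, IsFib T A := by
  have hp : ∀ f : fibreSpace, MemLp (fun x => A x (f x)) 2 haarTwoAdic := fun f =>
    (Lp.memLp f).of_le_mul (c := C) (hm f) (ae_of_all _ fun x => (A x).le_of_opNorm_le (hA x) _)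
  let L : fibreSpace →ₗ[ℂ] fibreSpace :=
    { toFun := fun f => (hp f).toLp _
      map_add' := fun f g => Lp.ext (by
        filter_upwards [(hp (f + g)).coeFn_toLp, (hp f).coeFn_toLp, (hp g).coeFn_toLp, Lp.coeFn_add f g,
          Lp.coeFn_add ((hp f).toLp _) ((hp g).toLp _)] with x h1 h2 h3 h4 h5
        rw [h1, h5, h4, Pi.add_apply, Pi.add_apply, h2, h3, map_add])
      map_smul' := fun a f => Lp.ext (by
        filter_upwards [(hp (a • f)).coeFn_toLp, (hp f).coeFn_toLp, Lp.coeFn_smul a f,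
          Lp.coeFn_smul a ((hp f).toLp _)] with x h1 h2 h4 h5
        rw [RingHom.id_apply, h1, h5, h4, Pi.smul_apply, Pi.smul_apply, h2, map_smul]) }
  have hL : ∀ f : fibreSpace, ∀ᵐ x ∂haarTwoAdic, L f x = A x (f x) := fun f => (hp f).coeFn_toLp
  refine ⟨L.mkContinuous C fun f => Lp.norm_le_mul_norm_of_ae_le_mul ?_, hL⟩
  filter_upwards [hL f] with x hx
  rw [hx]
  exact (A x).le_of_opNorm_le (hA x) _

theorem continuous_coord (j : ℤ) : Continuous fun v : seqHilbert => v j := by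
  simpa [basisVec, lp.inner_single_left] using (innerSL ℂ (basisVec j)).continuous

theorem exists_isFib_of_isW {A : ℤ_[2] → seqHilbert →L[ℂ] seqHilbert} {c : ℤ → ℤ_[2] → ℝ} {k : ℤ}
    (h : ∀ x, IsW (A x) (fun j => c j x) k) (hc : ∀ j, Measurable (c j)) {C : ℝ}
    (hA : ∀ x, ‖A x‖ ≤ C) : ∃ T, IsFib T A := by
  refine exists_isFib A hA fun f => ?_
  refine aestronglyMeasurable_of_tendsto_ae (u := (atTop : Filter (Finset ℤ)))
    (f := fun s x => ∑ j ∈ s, A x (f x j • basisVec j)) (fun s => ?_)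
    (ae_of_all _ fun x => (A x).hasSum (hasSum_basis (f x)))
  refine Finset.aestronglyMeasurable_fun_sum _ fun j _ => ?_
  simp only [map_smul, (h _).basis]
  exact ((continuous_coord j).comp_aestronglyMeasurable (Lp.aestronglyMeasurable f)).smul
    ((Complex.measurable_ofReal.comp (hc j)).aestronglyMeasurable.smul_const _)

theorem exists_mul {g : ℤ_[2] → ℂ} (hg : Measurable g) {C : ℝ} (hC : ∀ x, ‖g x‖ ≤ C) :
    ∃ T, IsFib T fun x => g x • 1 :=
  exists_isFib _ (C := C) (fun x => ContinuousLinearMap.opNorm_le_bound _ ((norm_nonneg _).trans (hC x))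
    fun v => (norm_smul_le (g x) v).trans (mul_le_mul_of_nonneg_right (hC x) (norm_nonneg _)))
    fun f => hg.aestronglyMeasurable.smul (Lp.aestronglyMeasurable f)

theorem IsFib.pow {T : fibreSpace →L[ℂ] fibreSpace} {A : ℤ_[2] → seqHilbert →L[ℂ] seqHilbert}
    (h : IsFib T A) (n : ℕ) : IsFib (T ^ n) fun x => A x ^ n := by
  intro f
  induction n with
  | zero => simp
  | succ n ih =>
    filter_upwards [ih, h ((T ^ n) f)] with x h1 h2
    rw [pow_succ', pow_succ', mul_apply_eq_comp, mul_apply_eq_comp, h2, h1]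

theorem exists_shift {A : ℤ_[2] → seqHilbert →L[ℂ] seqHilbert} {T : fibreSpace →L[ℂ] fibreSpace}
    (h : IsFib T A) : ∃ V : fibreSpace →L[ℂ] fibreSpace, ‖V‖ ≤ ‖T‖ ∧
      ∀ f : fibreSpace, ∀ᵐ x ∂haarTwoAdic, V f (x + 1) = A x (f x) := by
  have hmp := measurePreserving_add_right haarTwoAdic (-1)
  refine ⟨(Lp.compMeasurePreservingₗᵢ ℂ (· + -1) hmp).toContinuousLinearMap.comp T,
    ContinuousLinearMap.opNorm_le_bound _ (norm_nonneg _) fun f => ?_, fun f => ?_⟩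
  · simpa using T.le_opNorm f
  · filter_upwards [ae_add 1 (Lp.coeFn_compMeasurePreserving (T f) hmp), h f] with x h1 h2
    rw [← h2]
    simpa using h1

section trans

variable {Sf Vf : ℤ_[2] → seqHilbert →L[ℂ] seqHilbert} {S V : fibreSpace →L[ℂ] fibreSpace}
  {W : Submodule ℂ fibreSpace}

theorem ae_inner_eq_zero
    (hM : ∀ g : ℤ_[2] → ℂ, Measurable g → (∃ C : ℝ, ∀ x, ‖g x‖ ≤ C) → ∀ f ∈ W, ∀ f' : fibreSpace,
      (∀ᵐ x ∂haarTwoAdic, f' x = g x • f x) → f' ∈ W) {f u : fibreSpace} (hf : f ∈ W) (hu : u ∈ Wᗮ) :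
    ∀ᵐ x ∂haarTwoAdic, ⟪u x, f x⟫_ℂ = 0 := by
  refine (L2.integrable_inner (𝕜 := ℂ) u f).ae_eq_zero_of_forall_setIntegral_eq_zero fun s hs _ => ?_
  have hg : Measurable (s.indicator fun _ => (1 : ℂ)) := measurable_const.indicator hs
  have hb : ∀ x, ‖s.indicator (fun _ => (1 : ℂ)) x‖ ≤ 1 := fun x => by
    by_cases hx : x ∈ s <;> simp [hx]
  obtain ⟨T, hT⟩ := exists_mul hg hb
  have h1 := (Submodule.mem_orthogonal' _ _).1 hu _ (hM _ hg ⟨1, hb⟩ f hf (T f) (hT f))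
  rw [← integral_indicator hs, ← h1, L2.inner_def]
  refine integral_congr_ae ?_
  filter_upwards [hT f] with x hx
  rw [hx]
  by_cases hxs : x ∈ s <;> simp [hxs]

theorem ae_ne_of_pow (hVf : ∀ x, IsW (Vf x) (fun j => bb j x) (-1))
    (hV : ∀ f : fibreSpace, ∀ᵐ x ∂haarTwoAdic, V f (x + 1) = Vf x (f x)) (f : fibreSpace) (k : ℕ) :
    ∀ᵐ x ∂haarTwoAdic, ∀ s, f x s ≠ 0 → (V ^ k) f (x + k) (s - k) ≠ 0 := by
  induction k with
  | zero => simp
  | succ k ih =>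
    have h0 : ∀ᵐ x ∂haarTwoAdic, x ≠ -1 := by simp [ae_iff, haar_singleton]
    filter_upwards [ih, ae_add k (hV ((V ^ k) f)), ae_add k h0] with x h1 h2 h3 s hs
    rw [pow_succ', mul_apply_eq_comp, Nat.cast_succ, ← add_assoc, h2, Nat.cast_succ,
      show s - (k + 1) = s - k + -1 by ring, hVf]
    exact mul_ne_zero (by exact_mod_cast (bb_pos h3 _).ne') (h1 s hs)

theorem transitive (hSf : ∀ x, IsW (Sf x) (fun j => be j x) 1) (hS : IsFib S Sf)
    (hVf : ∀ x, IsW (Vf x) (fun j => bb j x) (-1))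
    (hV : ∀ f : fibreSpace, ∀ᵐ x ∂haarTwoAdic, V f (x + 1) = Vf x (f x))
    (hW : IsClosed (W : Set fibreSpace)) (hSW : ∀ f ∈ W, S f ∈ W) (hVW : ∀ f ∈ W, V f ∈ W)
    (hM : ∀ g : ℤ_[2] → ℂ, Measurable g → (∃ C : ℝ, ∀ x, ‖g x‖ ≤ C) → ∀ f ∈ W, ∀ f' : fibreSpace,
      (∀ᵐ x ∂haarTwoAdic, f' x = g x • f x) → f' ∈ W) : W = ⊥ ∨ W = ⊤ := by
  have hp : ∀ {T : fibreSpace →L[ℂ] fibreSpace}, (∀ f ∈ W, T f ∈ W) → ∀ n : ℕ, ∀ f ∈ W, (T ^ n) f ∈ W :=
    fun hT n f hf => by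
      induction n with
      | zero => simpa using hf
      | succ n ih => rw [pow_succ', mul_apply_eq_comp]; exact hT _ ih
  have h2 : ∀ f ∈ W, ∀ u ∈ Wᗮ, ∀ᵐ x ∂haarTwoAdic, ∀ s m, s ≤ m → f x s = 0 ∨ u x m = 0 := by
    intro f hf u hu
    filter_upwards [ae_all_iff.2 fun n => ae_inner_eq_zero hM (hp hSW n f hf) hu,
      ae_all_iff.2 fun n => hS.pow n f] with x h1 h2 s m hsm
    exact (cost_ph x).orth (hSf x) (fun n => by rw [← h2 n, h1 n]) hsm
  rw [or_iff_not_imp_left]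
  intro hne
  obtain ⟨f, hf, hf0⟩ := (Submodule.ne_bot_iff _).1 hne
  have hz : ∀ u : fibreSpace, (∀ m, ∀ᵐ x ∂haarTwoAdic, u x m = 0) → u = 0 := fun u hu => by
    refine Lp.ext ?_
    filter_upwards [ae_all_iff.2 hu, Lp.coeFn_zero seqHilbert 2 haarTwoAdic] with x h1 h2
    rw [h2]
    exact lp.ext (funext h1)
  obtain ⟨s, hs⟩ : ∃ s, ¬ ∀ᵐ x ∂haarTwoAdic, f x s = 0 := by
    by_contra hn
    push Not at hn
    exact hf0 (hz f hn)
  have := hW.completeSpace_coe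
  rw [← Submodule.orthogonal_eq_bot_iff, Submodule.eq_bot_iff]
  intro u hu
  refine hz u fun m => ?_
  set C : Set ℤ_[2] := ⋃ k : ℕ, {x | s - k ≤ m ∧ u (x + k) m ≠ 0} with hC
  have hum : Measurable fun x => u x m :=
    ((continuous_coord m).comp_stronglyMeasurable (Lp.stronglyMeasurable u)).measurable
  have hCm : MeasurableSet C := MeasurableSet.iUnion fun k => (MeasurableSet.const _).inter
    ((hum.comp (measurable_add_const _)) (measurableSet_singleton 0).compl)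
  have hsub : (fun x : ℤ_[2] => 1 + x) ⁻¹' C ⊆ C := by
    intro x hx
    obtain ⟨k, h1, h2⟩ := Set.mem_iUnion.1 hx
    refine Set.mem_iUnion.2 ⟨k + 1, by push_cast; omega, ?_⟩
    rwa [show x + ((k + 1 : ℕ) : ℤ_[2]) = 1 + x + k by push_cast; ring]
  rcases ergodic_add_one.ae_empty_or_univ_of_preimage_ae_le hCm.nullMeasurableSet hsub.eventuallyLE
    with h | h
  · refine ae_of_add ((s - m).toNat : ℕ) ?_
    filter_upwards [h.mem_iff] with x hx
    by_contra hn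
    exact hx.1 (Set.mem_iUnion.2 ⟨(s - m).toNat, by omega, hn⟩)
  · refine absurd ?_ hs
    filter_upwards [h.mem_iff, ae_all_iff.2 fun k => ae_ne_of_pow hVf hV f k,
      ae_all_iff.2 fun k : ℕ => ae_add k (h2 _ (hp hVW k f hf) u hu)] with x h1 h3 h4
    obtain ⟨k, h6, h7⟩ := Set.mem_iUnion.1 (h1.2 trivial)
    by_contra hn
    exact (h4 k _ _ h6).elim (h3 k s hn) h7

end trans

end Crest.Agent.R113b
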