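import Crest.Agent.R113b.Key
import Crest.Prelude.Def_TwoAdicShift

/-!
# Row 113: the invariant subspaces of one fibre shift
-/

set_option autoImplicit false

namespace Crest.Agent.R113b

open Real Crest.AnalysisR.TwoAdic
open scoped InnerProductSpace

theorem basisVec_apply (j l : ℤ) : basisVec j l = if l = j then 1 else 0 := by
  simp [basisVec, lp.single_apply, Pi.single_apply]

theorem hasSum_basisVec (v : seqHilbert) : HasSum (fun l => v l • basisVec l) v := by
  have := lp.hasSum_single (by norm_num : (2 : ENNReal) ≠ ⊤) v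
  refine this.congr_fun fun l => ?_
  rw [basisVec, ← lp.single_smul]
  simp

theorem inner_basisVec (g : seqHilbert) (l : ℤ) : ⟪g, basisVec l⟫_ℂ = (starRingEnd ℂ) (g l) := by
  rw [basisVec, lp.inner_single_right]
  simp

theorem summable_sq (v : seqHilbert) : Summable fun l => ‖v l‖ ^ 2 := by
  have := (lp.memℓp v).summable (by norm_num)
  simpa using this

theorem continuous_coord (l : ℤ) : Continuous fun v : seqHilbert => v l := by
  have : (fun v : seqHilbert => v l) = fun v => (starRingEnd ℂ) ⟪v, basisVec l⟫_ℂ := by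
    funext v; simp [inner_basisVec]
  rw [this]
  exact Complex.continuous_conj.comp (continuous_id.inner continuous_const)

theorem isClosed_tailSpace (h : ℤ) : IsClosed (tailSpace h : Set seqHilbert) :=
  Submodule.isClosed_topologicalClosure _

theorem basisVec_mem_tailSpace {h j : ℤ} (hj : h ≤ j) : basisVec j ∈ tailSpace h :=
  Submodule.le_topologicalClosure _ (Submodule.subset_span ⟨⟨j, hj⟩, rfl⟩)

theorem mem_of_coord {W : Submodule ℂ seqHilbert} (hW : IsClosed (W : Set seqHilbert))
    {v : seqHilbert} {u : seqHilbert} {F : ℤ → seqHilbert} (hu : HasSum (fun l => v l • F l) u)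
    (h : ∀ l, v l ≠ 0 → F l ∈ W) : u ∈ W := by
  refine hW.mem_of_tendsto hu (Filter.Eventually.of_forall fun s => W.sum_mem fun l _ => ?_)
  by_cases hl : v l = 0
  · simp [hl]
  · exact W.smul_mem _ (h l hl)

theorem mem_tailSpace {h : ℤ} {v : seqHilbert} : v ∈ tailSpace h ↔ ∀ j < h, v j = 0 := by
  constructor
  · intro hv j hj
    have h1 : closure (Submodule.span ℂ
        (Set.range fun j : {j : ℤ // h ≤ j} => basisVec (j : ℤ)) : Set seqHilbert) ⊆
        {v : seqHilbert | v j = 0} := by
      refine closure_minimal (fun u hu => ?_) (isClosed_eq (continuous_coord j) continuous_const)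
      induction hu using Submodule.span_induction with
      | mem x hx =>
        obtain ⟨⟨k, hk⟩, rfl⟩ := hx
        simp only [Set.mem_ofPred_eq, basisVec_apply]
        rw [if_neg (by omega)]
      | zero => simp
      | add x y _ _ hx hy =>
        simp only [Set.mem_ofPred_eq] at hx hy ⊢
        simp [hx, hy]
      | smul a x _ hx =>
        simp only [Set.mem_ofPred_eq] at hx ⊢
        simp [hx]
    exact h1 hv
  · intro hv
    refine mem_of_coord (isClosed_tailSpace h) (hasSum_basisVec v) fun l hl =>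
      basisVec_mem_tailSpace ?_
    by_contra hlt
    exact hl (hv l (by omega))

section

variable {d w : ℤ → ℝ} {C₀ : ℝ} {S : seqHilbert →L[ℂ] seqHilbert}

theorem pow_basisVec (hw : ∀ j, w (j + 1) = w j + d j)
    (hS : ∀ j, S (basisVec j) = (exp (-d j) : ℂ) • basisVec (j + 1)) (n : ℕ) (l : ℤ) :
    (S ^ n) (basisVec l) = (exp (w l - w (l + n)) : ℂ) • basisVec (l + n) := by
  induction n with
  | zero => simp
  | succ n ih =>
    rw [pow_succ', mul_apply_eq_comp, ih, map_smul, hS, smul_smul, ← Complex.ofReal_mul,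
      ← exp_add]
    push_cast
    rw [← add_assoc, hw]
    congr 2
    push_cast
    ring

theorem fibre_orth (hup : ∀ i j, 0 ≤ i → i ≤ j → d i ≤ d j)
    (hdown : ∀ i j, i < 0 → j ≤ i → d i ≤ d j) (hgrow : ∀ j : ℤ, 100 * |(j : ℝ)| ≤ d j + C₀)
    (hw : ∀ j, w (j + 1) = w j + d j)
    (hS : ∀ j, S (basisVec j) = (exp (-d j) : ℂ) • basisVec (j + 1)) (f g : seqHilbert)
    (h : ∀ n : ℕ, ⟪g, (S ^ n) f⟫_ℂ = 0) {i j : ℤ} (hi : f i ≠ 0) (hj : g j ≠ 0) : j < i := by
  refine key d w C₀ hup hdown hgrow hw f (fun l => (starRingEnd ℂ) (g l)) (summable_sq f)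
    (by simpa using summable_sq g) (fun n => ?_) hi (by simpa using hj)
  have h1 := ((innerSL ℂ g).comp (S ^ n)).hasSum (hasSum_basisVec f)
  simp only [ContinuousLinearMap.comp_apply, innerSL_apply_apply, h n] at h1
  refine h1.congr_fun fun l => ?_
  rw [map_smul, pow_basisVec hw hS, inner_smul_right, inner_smul_right, inner_basisVec, mul_assoc]

theorem exists_prim (d : ℤ → ℝ) : ∃ w : ℤ → ℝ, ∀ j, w (j + 1) = w j + d j := by
  refine ⟨fun j => ∑ i ∈ Finset.range j.toNat, d i - ∑ i ∈ Finset.range (-j).toNat, d (-(i + 1)),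
    fun j => ?_⟩
  rcases le_or_gt 0 j with hj | hj
  · obtain ⟨n, rfl⟩ := Int.eq_ofNat_of_zero_le hj
    have e1 : ((n : ℤ) + 1).toNat = n + 1 := by omega
    have e2 : (-((n : ℤ) + 1)).toNat = 0 := by omega
    have e3 : (-(n : ℤ)).toNat = 0 := by omega
    simp only [e1, e2, e3, Int.toNat_natCast, Finset.sum_range_succ]
    ring
  · obtain ⟨n, rfl⟩ : ∃ n : ℕ, j = -((n : ℤ) + 1) := ⟨(-j - 1).toNat, by omega⟩
    have e1 : (-((n : ℤ) + 1) + 1).toNat = 0 := by omega
    have e2 : (-(-((n : ℤ) + 1) + 1)).toNat = n := by omega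
    have e3 : (-((n : ℤ) + 1)).toNat = 0 := by omega
    have e4 : (-(-((n : ℤ) + 1))).toNat = n + 1 := by omega
    simp only [e1, e2, e3, e4, Finset.sum_range_succ]
    ring

/-- The closed invariant subspaces of a fibre shift. -/
theorem fibre_lattice (hup : ∀ i j, 0 ≤ i → i ≤ j → d i ≤ d j)
    (hdown : ∀ i j, i < 0 → j ≤ i → d i ≤ d j) (hgrow : ∀ j : ℤ, 100 * |(j : ℝ)| ≤ d j + C₀)
    (hS : ∀ j, S (basisVec j) = (exp (-d j) : ℂ) • basisVec (j + 1))
    (W : Submodule ℂ seqHilbert) (hW : IsClosed (W : Set seqHilbert)) :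
    (∀ v ∈ W, S v ∈ W) ↔ (W = ⊥ ∨ W = ⊤ ∨ ∃ h : ℤ, W = tailSpace h) := by
  obtain ⟨w, hw⟩ := exists_prim d
  constructor
  · intro hinv
    have hpow : ∀ n : ℕ, ∀ v ∈ W, (S ^ n) v ∈ W := by
      intro n
      induction n with
      | zero => intro v hv; simpa using hv
      | succ n ih => intro v hv; rw [pow_succ', mul_apply_eq_comp]; exact hinv _ (ih v hv)
    have hk : ∀ f ∈ W, ∀ g ∈ Wᗮ, ∀ i j, f i ≠ 0 → g j ≠ 0 → j < i := fun f hf g hg i j hi hj =>
      fibre_orth hup hdown hgrow hw hS f g
        (fun n => (Submodule.mem_orthogonal' W g).1 hg _ (hpow n f hf)) hi hj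
    have : CompleteSpace W := hW.completeSpace_coe
    by_cases h0 : ∃ i, ∃ f ∈ W, f i ≠ 0
    · by_cases hb : ∃ b : ℤ, ∀ i, (∃ f ∈ W, f i ≠ 0) → b ≤ i
      · obtain ⟨h, ⟨f, hf, hfh⟩, hmin⟩ := Int.exists_least_of_bdd hb h0
        refine Or.inr (Or.inr ⟨h, le_antisymm (fun v hv => mem_tailSpace.2 fun j hj => ?_) ?_⟩)
        · by_contra e
          have := hmin j ⟨v, hv, e⟩
          omega
        · intro v hv
          refine mem_of_coord hW (hasSum_basisVec v) fun l hl => ?_
          rw [← W.orthogonal_orthogonal, Submodule.mem_orthogonal]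
          intro g hg
          rw [inner_basisVec]
          by_contra e
          have h1 := hk f hf g hg h l hfh (by simpa using e)
          exact hl (mem_tailSpace.1 hv l h1)
      · refine Or.inr (Or.inl ?_)
        rw [← Submodule.orthogonal_eq_bot_iff, eq_bot_iff]
        intro g hg
        rw [Submodule.mem_bot]
        ext j
        by_contra e
        exact hb ⟨j, fun i ⟨f, hf, hi⟩ => (hk f hf g hg i j hi (by simpa using e)).le⟩
    · refine Or.inl (eq_bot_iff.2 fun v hv => ?_)
      rw [Submodule.mem_bot]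
      ext j
      by_contra e
      exact h0 ⟨j, v, hv, by simpa using e⟩
  · rintro (rfl | rfl | ⟨h, rfl⟩) v hv
    · rw [Submodule.mem_bot] at hv ⊢
      rw [hv, map_zero]
    · trivial
    · have h1 := S.hasSum (hasSum_basisVec v)
      simp only [map_smul] at h1
      refine mem_of_coord hW h1 fun l hl => ?_
      rw [hS]
      refine Submodule.smul_mem _ _ (basisVec_mem_tailSpace ?_)
      by_contra e
      exact hl (mem_tailSpace.1 hv l (by omega))

end

end Crest.Agent.R113b
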