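import Crest.Agent.R113b.Fib

/-!
# Row 113, S0148: all separable infinite-dimensional Hilbert spaces are isomorphic
-/

set_option autoImplicit false

namespace Crest.Agent.R113b

open Filter Topology MeasureTheory Crest.AnalysisR.TwoAdic
open scoped InnerProductSpace

theorem exists_nat_basis (H : Type*) [NormedAddCommGroup H] [InnerProductSpace ℂ H] [CompleteSpace H]
    [TopologicalSpace.SeparableSpace H] (hH : ¬ FiniteDimensional ℂ H) :
    Nonempty (HilbertBasis ℕ ℂ H) := by
  obtain ⟨w, b, hb⟩ := exists_hilbertBasis ℂ H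
  have ho := b.orthonormal
  have hc : Countable w := by
    refine Pairwise.countable_of_isOpen_disjoint (s := fun i : w => Metric.ball (b i) (1 / 2))
      (fun i j hij => Metric.ball_disjoint_ball ?_) (fun _ => Metric.isOpen_ball)
      fun _ => Metric.nonempty_ball.2 (by norm_num)
    have h1 := norm_sub_sq (𝕜 := ℂ) (b i) (b j)
    rw [ho.1 i, ho.1 j, ho.2 hij] at h1
    rw [dist_eq_norm]
    simp only [map_zero, mul_zero, sub_zero, one_pow] at h1
    nlinarith [norm_nonneg (b i - b j)]
  have hi : Infinite w := by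
    rw [← not_finite_iff_infinite]
    intro hf
    have := Fintype.ofFinite w
    exact hH (b.toOrthonormalBasis.toBasis.finiteDimensional_of_finite)
  obtain ⟨e⟩ := nonempty_equiv_of_countable (α := ℕ) (β := w)
  refine ⟨HilbertBasis.mk (ho.comp e e.injective) ?_⟩
  rw [e.surjective.range_comp, b.dense_span]

attribute [local instance] Crest.AnalysisR.TwoAdic.borelTwoAdic Crest.AnalysisR.TwoAdic.borelSpace_twoAdic

instance : TopologicalSpace.SeparableSpace seqHilbert := by
  refine ⟨?_⟩
  have h : TopologicalSpace.IsSeparable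
      (closure (Submodule.span ℂ (Set.range basisVec) : Set seqHilbert)) :=
    ((Set.countable_range basisVec).isSeparable.span (R := ℂ)).closure
  have h2 : closure (Submodule.span ℂ (Set.range basisVec) : Set seqHilbert) = Set.univ :=
    Set.eq_univ_of_forall fun v => mem_of_basis (Submodule.isClosed_topologicalClosure _) fun j _ =>
      Submodule.le_topologicalClosure _ (Submodule.subset_span ⟨j, rfl⟩)
  rw [h2, TopologicalSpace.isSeparable_univ_iff] at h
  exact h.exists_countable_dense

instance : SecondCountableTopology seqHilbert := UniformSpace.secondCountable_of_separable _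

instance : TopologicalSpace.SeparableSpace fibreSpace := by
  have : Fact ((2 : ENNReal) ≠ ⊤) := ⟨by norm_num⟩
  infer_instance

theorem not_finiteDimensional_fibre : ¬ FiniteDimensional ℂ fibreSpace := by
  intro h
  have h1 : Orthonormal ℂ fun j => (Lp.const 2 haarTwoAdic (basisVec j) : fibreSpace) := by
    rw [orthonormal_iff_ite]
    intro i j
    rw [L2.inner_def, integral_congr_ae (g := fun _ => ⟪basisVec i, basisVec j⟫_ℂ)]
    · simp [basisVec, lp.inner_single_left, lp.single_apply, Pi.single_apply]
    · filter_upwards [Lp.coeFn_const 2 haarTwoAdic (basisVec i),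
        Lp.coeFn_const 2 haarTwoAdic (basisVec j)] with x h1 h2
      rw [h1, h2]; rfl
  have := h1.linearIndependent.finite
  exact not_finite ℤ

theorem exists_iso (H : Type*) [NormedAddCommGroup H] [InnerProductSpace ℂ H] [CompleteSpace H]
    [TopologicalSpace.SeparableSpace H] (hH : ¬ FiniteDimensional ℂ H) :
    Nonempty (H ≃ₗᵢ[ℂ] fibreSpace) := by
  obtain ⟨b⟩ := exists_nat_basis H hH
  obtain ⟨c⟩ := exists_nat_basis fibreSpace not_finiteDimensional_fibre
  exact ⟨b.repr.trans c.repr.symm⟩

theorem tendsto_root {a : ℕ → ℝ} (h0 : ∀ n, 0 ≤ a n)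
    (h : ∀ n : ℕ, 1 ≤ n → a n ≤ Real.exp (-10 * (((n + 1) ^ 2 / 4 : ℕ) : ℝ))) :
    Tendsto (fun n : ℕ => a n ^ (1 / (n : ℝ))) atTop (𝓝 0) := by
  refine squeeze_zero' (Eventually.of_forall fun n => Real.rpow_nonneg (h0 n) _) ?_
    (Real.tendsto_exp_neg_atTop_nhds_zero.comp tendsto_natCast_atTop_atTop)
  filter_upwards [eventually_ge_atTop 1] with n hn
  have hn' : (0 : ℝ) < n := by exact_mod_cast hn
  refine (Real.rpow_le_rpow (h0 n) (h n hn) (by positivity)).trans ?_
  rw [← Real.exp_mul, Function.comp_apply, Real.exp_le_exp, mul_one_div, div_le_iff₀ hn']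
  have h1 : n * n ≤ 10 * ((n + 1) ^ 2 / 4) := by
    have : n * n + 2 * n + 1 = (n + 1) ^ 2 := by ring
    omega
  have h2 : (n : ℝ) * n ≤ 10 * (((n + 1) ^ 2 / 4 : ℕ) : ℝ) := by exact_mod_cast h1
  linarith

end Crest.Agent.R113b
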