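import Mathlib

/-!
# Row 113: the Newton polygon lemma behind unicellularity of the fibre shifts
-/

set_option autoImplicit false

namespace Crest.Agent.R113b

open Real Finset

theorem key_argmax (a : ℕ → ℝ) {M C : ℝ} (hM : 0 ≤ M)
    (hb : ∀ p : ℕ, a p ≤ M * exp (C * p - 50 * (p : ℝ) ^ 2)) {p₀ : ℕ} (h0 : 0 < a p₀) :
    ∃ m₀ : ℕ, ∀ m : ℕ, m₀ ≤ m → ∀ t : ℝ, 0 ≤ t → t ≤ 25 * m →
      ∃ p ≤ m, ∀ p' : ℕ, a p' * exp (t * p') ≤ a p * exp (t * p) := by
  obtain ⟨m₁, hm₁⟩ := exists_nat_ge (|C| + M / a p₀)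
  refine ⟨m₁ + p₀, fun m hm t ht0 ht => ?_⟩
  obtain ⟨p, hp, hmax⟩ := (range (m + 1)).exists_max_image (fun p => a p * exp (t * p))
    ⟨0, by simp⟩
  refine ⟨p, Nat.lt_succ_iff.1 (mem_range.1 hp), fun p' => ?_⟩
  by_cases hp' : p' ≤ m
  · exact hmax p' (mem_range.2 (by omega))
  · refine le_trans ?_ (hmax p₀ (mem_range.2 (by omega)))
    have h1 : (m : ℝ) + 1 ≤ p' := by exact_mod_cast (by omega : m + 1 ≤ p')
    have h2 : (m₁ : ℝ) ≤ m := by exact_mod_cast (by omega : m₁ ≤ m)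
    have h3 : 0 ≤ M / a p₀ := by positivity
    have h4 := le_abs_self C
    have h5 := abs_nonneg C
    have h6 : C * p' - 50 * (p' : ℝ) ^ 2 + t * p' ≤ -(M / a p₀) := by nlinarith
    have h7 : M * exp (-(M / a p₀)) ≤ a p₀ := by
      rw [exp_neg, ← div_eq_mul_inv, div_le_iff₀ (exp_pos _), ← div_le_iff₀' h0]
      linarith [add_one_le_exp (M / a p₀)]
    calc a p' * exp (t * p') ≤ M * exp (C * p' - 50 * (p' : ℝ) ^ 2) * exp (t * p') :=
          mul_le_mul_of_nonneg_right (hb p') (exp_pos _).le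
      _ = M * exp (C * p' - 50 * (p' : ℝ) ^ 2 + t * p') := by rw [mul_assoc, ← exp_add]
      _ ≤ M * exp (-(M / a p₀)) := mul_le_mul_of_nonneg_left (exp_le_exp.2 h6) hM
      _ ≤ a p₀ := h7
      _ ≤ a p₀ * exp (t * p₀) := le_mul_of_one_le_right h0.le (one_le_exp (by positivity))

theorem key_mono (a : ℕ → ℝ) {p₀ : ℕ} (h0 : 0 < a p₀) {s t : ℝ} (hst : s < t) {p q : ℕ}
    (hp : ∀ p' : ℕ, a p' * exp (s * p') ≤ a p * exp (s * p))
    (hq : ∀ p' : ℕ, a p' * exp (t * p') ≤ a q * exp (t * q)) : p ≤ q := by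
  by_contra hlt
  have h1 : (q : ℝ) < p := by exact_mod_cast (by omega : q < p)
  have hq0 : 0 < a q := (mul_pos_iff_of_pos_right (exp_pos _)).1
    (lt_of_lt_of_le (mul_pos h0 (exp_pos _)) (hq p₀))
  have h2 := hp q
  have h3 := hq p
  have h4 : a q * exp (s * q) * exp ((t - s) * p) ≤ a q * exp (t * q) := by
    refine le_trans (mul_le_mul_of_nonneg_right h2 (exp_pos _).le) (le_trans (le_of_eq ?_) h3)
    rw [mul_assoc, ← exp_add]; congr 2; ring
  rw [mul_assoc, ← exp_add] at h4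
  have h5 := exp_le_exp.1 (le_of_mul_le_mul_left h4 hq0)
  nlinarith

theorem key_decay (a : ℕ → ℝ) {t : ℝ} {p : ℕ}
    (h₁ : ∀ p' : ℕ, a p' * exp ((t - 2) * p') ≤ a p * exp ((t - 2) * p))
    (h₂ : ∀ p' : ℕ, a p' * exp ((t + 2) * p') ≤ a p * exp ((t + 2) * p)) (p' : ℕ) :
    a p' * exp (t * p') ≤ a p * exp (t * p) * exp (-2 * |(p' : ℝ) - p|) := by
  rcases le_total (p' : ℝ) p with h | h
  · rw [abs_of_nonpos (by linarith)]
    have := mul_le_mul_of_nonneg_right (h₁ p') (exp_pos (2 * p')).le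
    rw [mul_assoc, mul_assoc, ← exp_add, ← exp_add] at this
    rw [mul_assoc, ← exp_add, show t * p' = (t - 2) * p' + 2 * p' by ring,
      show t * p + -2 * -((p' : ℝ) - p) = (t - 2) * p + 2 * p' by ring]
    exact this
  · rw [abs_of_nonneg (by linarith)]
    have := mul_le_mul_of_nonneg_right (h₂ p') (exp_pos (-2 * p')).le
    rw [mul_assoc, mul_assoc, ← exp_add, ← exp_add] at this
    rw [mul_assoc, ← exp_add, show t * p' = (t + 2) * p' + -2 * p' by ring,
      show t * p + -2 * ((p' : ℝ) - p) = (t + 2) * p + -2 * p' by ring]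
    exact this

theorem key_peak (a b : ℕ → ℝ) {M C : ℝ} (hM : 0 ≤ M)
    (ha : ∀ p : ℕ, a p ≤ M * exp (C * p - 50 * (p : ℝ) ^ 2))
    (hb : ∀ p : ℕ, b p ≤ M * exp (C * p - 50 * (p : ℝ) ^ 2)) {p₀ q₀ : ℕ} (ha0 : 0 < a p₀)
    (hb0 : 0 < b q₀) (L : ℝ) :
    ∃ t : ℝ, L ≤ t ∧ ∃ p q : ℕ,
      (∀ p' : ℕ, a p' * exp (t * p') ≤ a p * exp (t * p) * exp (-2 * |(p' : ℝ) - p|)) ∧
      ∀ q' : ℕ, b q' * exp (t * q') ≤ b q * exp (t * q) * exp (-2 * |(q' : ℝ) - q|) := by
  obtain ⟨m₁, h₁⟩ := key_argmax a hM ha ha0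
  obtain ⟨m₂, h₂⟩ := key_argmax b hM hb hb0
  obtain ⟨m₃, h₃⟩ := exists_nat_ge L
  set m := m₁ + m₂ + m₃ + 1 with hm
  have hm1 : (1 : ℝ) ≤ m := by exact_mod_cast (by omega : 1 ≤ m)
  have hm3 : (m₃ : ℝ) ≤ m := by exact_mod_cast (by omega : m₃ ≤ m)
  have hP : ∀ i : ℕ, ∃ p, i ≤ 2 * m + 1 → p ≤ m ∧
      ∀ p' : ℕ, a p' * exp ((m + 4 * i) * p') ≤ a p * exp ((m + 4 * i) * p) := by
    intro i
    by_cases hi : i ≤ 2 * m + 1
    · have : (i : ℝ) ≤ 2 * m + 1 := by exact_mod_cast hi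
      obtain ⟨p, hp⟩ := h₁ m (by omega) (m + 4 * i) (by positivity) (by linarith)
      exact ⟨p, fun _ => hp⟩
    · exact ⟨0, fun h => absurd h hi⟩
  have hQ : ∀ i : ℕ, ∃ p, i ≤ 2 * m + 1 → p ≤ m ∧
      ∀ p' : ℕ, b p' * exp ((m + 4 * i) * p') ≤ b p * exp ((m + 4 * i) * p) := by
    intro i
    by_cases hi : i ≤ 2 * m + 1
    · have : (i : ℝ) ≤ 2 * m + 1 := by exact_mod_cast hi
      obtain ⟨p, hp⟩ := h₂ m (by omega) (m + 4 * i) (by positivity) (by linarith)
      exact ⟨p, fun _ => hp⟩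
    · exact ⟨0, fun h => absurd h hi⟩
  choose P hP using hP
  choose Q hQ using hQ
  have hlt : ∀ i : ℕ, (m : ℝ) + 4 * i < m + 4 * ((i + 1 : ℕ) : ℝ) := fun i => by push_cast; linarith
  have : ∃ i, i ≤ 2 * m ∧ P (i + 1) = P i ∧ Q (i + 1) = Q i := by
    by_contra hcon
    have hgrow : ∀ i, i ≤ 2 * m + 1 → i ≤ P i + Q i := by
      intro i
      induction i with
      | zero => intro _; omega
      | succ i ih =>
        intro hi
        have e1 := key_mono a ha0 (hlt i) (hP i (by omega)).2 (hP (i + 1) hi).2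
        have e2 := key_mono b hb0 (hlt i) (hQ i (by omega)).2 (hQ (i + 1) hi).2
        have e3 : ¬ (P (i + 1) = P i ∧ Q (i + 1) = Q i) := fun h => hcon ⟨i, by omega, h⟩
        have := ih (by omega)
        omega
    have e1 := hgrow _ le_rfl
    have e2 := (hP _ le_rfl).1
    have e3 := (hQ _ le_rfl).1
    omega
  obtain ⟨i, hi, e1, e2⟩ := this
  have f1 : (m : ℝ) + 4 * i + 2 - 2 = m + 4 * i := by ring
  have f2 : (m : ℝ) + 4 * i + 2 + 2 = m + 4 * ((i + 1 : ℕ) : ℝ) := by push_cast; ring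
  refine ⟨m + 4 * i + 2, by have : (0 : ℝ) ≤ i := by positivity
                            linarith, P i, Q i, key_decay a ?_ ?_, key_decay b ?_ ?_⟩
  · rw [f1]; exact (hP i (by omega)).2
  · rw [f2, ← e1]; exact (hP (i + 1) (by omega)).2
  · rw [f1]; exact (hQ i (by omega)).2
  · rw [f2, ← e2]; exact (hQ (i + 1) (by omega)).2

theorem key_tele_le {d w : ℤ → ℝ} (hw : ∀ j, w (j + 1) = w j + d j) {t : ℝ} (k : ℤ) (n : ℕ)
    (h : ∀ j, k ≤ j → j < k + n → d j ≤ t) : w (k + n) ≤ w k + t * n := by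
  induction n with
  | zero => simp
  | succ n ih =>
    have h1 := ih fun j h1 h2 => h j h1 (by push_cast; omega)
    have h2 := h (k + n) (by omega) (by push_cast; omega)
    push_cast
    rw [← add_assoc, hw]
    linarith

theorem key_tele_ge {d w : ℤ → ℝ} (hw : ∀ j, w (j + 1) = w j + d j) {t : ℝ} (k : ℤ) (n : ℕ)
    (h : ∀ j, k ≤ j → j < k + n → t ≤ d j) : w k + t * n ≤ w (k + n) := by
  induction n with
  | zero => simp
  | succ n ih =>
    have h1 := ih fun j h1 h2 => h j h1 (by push_cast; omega)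
    have h2 := h (k + n) (by omega) (by push_cast; omega)
    push_cast
    rw [← add_assoc, hw]
    linarith

theorem key_geom (l₀ : ℤ) : ∃ s : ℝ, s ≤ 1 / 2 ∧
    HasSum (fun l : ℤ => if l = l₀ then 0 else exp (-2 * |((l - l₀ : ℤ) : ℝ)|)) s := by
  have h1 : exp (-2) ≤ 1 / 5 := by
    rw [exp_neg, ← one_div]
    refine one_div_le_one_div_of_le (by norm_num) ?_
    have := quadratic_le_exp_of_nonneg (show (0 : ℝ) ≤ 2 by norm_num)
    linarith
  have h0 := exp_pos (-2 : ℝ)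
  have h2 := (hasSum_geometric_of_lt_one h0.le (by linarith)).mul_left (exp (-2))
  have h3 : HasSum (fun n : ℕ => if ((n : ℤ) + 1) = 0 then 0 else
      exp (-2 * |(((n : ℤ) + 1 : ℤ) : ℝ)|)) (exp (-2) * (1 - exp (-2))⁻¹) := by
    refine h2.congr_fun fun n => ?_
    rw [if_neg (by omega), ← exp_nat_mul, ← exp_add, abs_of_nonneg (by positivity)]
    push_cast; ring_nf
  have h4 : HasSum (fun n : ℕ => if (-((n : ℤ) + 1)) = 0 then 0 else
      exp (-2 * |((-((n : ℤ) + 1) : ℤ) : ℝ)|)) (exp (-2) * (1 - exp (-2))⁻¹) := by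
    refine h3.congr_fun fun n => ?_
    rw [if_neg (by omega), if_neg (by omega), Int.cast_neg, abs_neg]
  have h5 := HasSum.of_add_one_of_neg_add_one
    (f := fun k : ℤ => if k = 0 then 0 else exp (-2 * |(k : ℝ)|)) h3 h4
  refine ⟨_, ?_, (Equiv.subRight l₀).hasSum_iff.2 h5 |>.congr_fun fun l => ?_⟩
  · rw [if_pos rfl, ← div_eq_mul_inv]
    have : exp (-2) / (1 - exp (-2)) ≤ 1 / 4 := by
      rw [div_le_iff₀ (by linarith)]; linarith
    linarith
  · simp [sub_eq_zero]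

set_option maxHeartbeats 1000000 in
theorem key_far (d w : ℤ → ℝ) (C₀ : ℝ) (hup : ∀ i j, 0 ≤ i → i ≤ j → d i ≤ d j)
    (hdown : ∀ i j, i < 0 → j ≤ i → d i ≤ d j) (hgrow : ∀ j : ℤ, 100 * |(j : ℝ)| ≤ d j + C₀)
    (hw : ∀ j, w (j + 1) = w j + d j) (f g : ℤ → ℂ) (hf : Summable fun l => ‖f l‖ ^ 2)
    (hg : Summable fun l => ‖g l‖ ^ 2)
    (h : ∀ n : ℕ, HasSum (fun l => f l * (exp (w l - w (l + n)) : ℂ) * g (l + n)) 0)
    (c : ℤ) {q₀ : ℕ} (hq₀ : 1 ≤ q₀) (hi : f (c - 1) ≠ 0) (hj : g (c + q₀) ≠ 0) : False := by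
  set K : ℝ := ∑' l, ‖f l‖ ^ 2 + ∑' l, ‖g l‖ ^ 2 + 1 with hK
  have hK1 : 0 ≤ ∑' l, ‖f l‖ ^ 2 := tsum_nonneg fun _ => by positivity
  have hK2 : 0 ≤ ∑' l, ‖g l‖ ^ 2 := tsum_nonneg fun _ => by positivity
  have hfK : ∀ l, ‖f l‖ ≤ K := fun l => by
    have := hf.le_tsum l fun _ _ => by positivity
    nlinarith [norm_nonneg (f l)]
  have hgK : ∀ l, ‖g l‖ ≤ K := fun l => by
    have := hg.le_tsum l fun _ _ => by positivity
    nlinarith [norm_nonneg (g l)]
  have hK0 : 1 ≤ K := by linarith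
  set a : ℕ → ℝ := fun p => ‖f (c - p)‖ * exp (w (c - p) - w c) with ha
  set b : ℕ → ℝ := fun q => ‖g (c + q)‖ * exp (w c - w (c + q)) with hb
  set C : ℝ := 50 + 100 * |(c : ℝ)| + C₀ with hC
  have hu : ∀ p : ℕ, w (c - p) - w c ≤ C * p - 50 * (p : ℝ) ^ 2 := by
    intro p
    induction p with
    | zero => simp
    | succ p ih =>
      have h1 := hw (c - (p + 1 : ℕ))
      rw [show c - ((p + 1 : ℕ) : ℤ) + 1 = c - p by push_cast; ring] at h1
      have h2 := hgrow (c - (p + 1 : ℕ))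
      have h3 := neg_abs_le (((c - (p + 1 : ℕ) : ℤ)) : ℝ)
      have h4 := le_abs_self (c : ℝ)
      push_cast at h1 h2 h3 ⊢
      nlinarith
  have hv : ∀ q : ℕ, w c - w (c + q) ≤ C * q - 50 * (q : ℝ) ^ 2 := by
    intro p
    induction p with
    | zero => simp
    | succ p ih =>
      have h1 := hw (c + p)
      have h2 := hgrow (c + p)
      have h3 := le_abs_self (((c + p : ℤ)) : ℝ)
      have h4 := neg_abs_le (c : ℝ)
      push_cast at h1 h2 h3 ⊢
      rw [← add_assoc]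
      nlinarith
  have ha0 : 0 < a 1 := mul_pos (norm_pos_iff.2 (by simpa using hi)) (exp_pos _)
  have hb0 : 0 < b q₀ := mul_pos (norm_pos_iff.2 hj) (exp_pos _)
  obtain ⟨t, ht, p, q, hp, hq⟩ := key_peak a b (M := K) (C := C) (by linarith)
    (fun p => mul_le_mul (hfK _) (exp_le_exp.2 (hu p)) (exp_pos _).le (by linarith))
    (fun p => mul_le_mul (hgK _) (exp_le_exp.2 (hv p)) (exp_pos _).le (by linarith)) ha0 hb0
    (|d c| + |d (c - 1)| + 2 * K / a 1 + 2 * K / b q₀)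
  have t1 : 0 ≤ 2 * K / a 1 := by positivity
  have t2 : 0 ≤ 2 * K / b q₀ := by positivity
  have t3 := abs_nonneg (d c)
  have t4 := abs_nonneg (d (c - 1))
  have tc : d c ≤ t := by linarith [le_abs_self (d c)]
  have tc' : d (c - 1) ≤ t := by linarith [le_abs_self (d (c - 1))]
  set A := a p * exp (t * p) with hA
  set B := b q * exp (t * q) with hB
  have hdec : ∀ x : ℝ, exp (-2 * |x|) ≤ 1 := fun x =>
    exp_le_one_iff.2 (by linarith [abs_nonneg x])
  have hA0 : 0 ≤ A := mul_nonneg (mul_nonneg (norm_nonneg _) (exp_pos _).le) (exp_pos _).le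
  have hB0 : 0 ≤ B := mul_nonneg (mul_nonneg (norm_nonneg _) (exp_pos _).le) (exp_pos _).le
  have hAK : 2 * K ≤ A := by
    have h1 := (hp 1).trans (mul_le_of_le_one_right hA0 (hdec _))
    have h2 : 2 * K / a 1 ≤ exp (t * (1 : ℕ)) := by
      have := add_one_le_exp (t * (1 : ℕ))
      push_cast at this ⊢
      linarith
    rw [div_le_iff₀' ha0] at h2
    linarith
  have hBK : 2 * K ≤ B := by
    have h1 := (hq q₀).trans (mul_le_of_le_one_right hB0 (hdec _))
    have h2 : 2 * K / b q₀ ≤ exp (t * q₀) := by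
      have h3 := add_one_le_exp (t * q₀)
      have h4 : (1 : ℝ) ≤ q₀ := by exact_mod_cast hq₀
      nlinarith
    rw [div_le_iff₀' hb0] at h2
    linarith
  set n := p + q with hn
  set T : ℤ → ℂ := fun l => f l * (exp (w l - w (l + n)) : ℂ) * g (l + n) with hT
  have hTn : ∀ l, ‖T l‖ * exp (t * n) = (‖f l‖ * exp (w l - w c) * exp (t * ((c - l : ℤ) : ℝ))) *
      (‖g (l + n)‖ * exp (w c - w (l + n)) * exp (t * ((l + n - c : ℤ) : ℝ))) := by
    intro l
    have e : exp (w l - w (l + n)) * exp (t * n) = exp (w l - w c) * exp (t * ((c - l : ℤ) : ℝ)) *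
        (exp (w c - w (l + n)) * exp (t * ((l + n - c : ℤ) : ℝ))) := by
      simp only [← exp_add]; congr 1; push_cast; ring
    simp only [hT, norm_mul, Complex.norm_real, Real.norm_eq_abs, abs_exp]
    calc ‖f l‖ * exp (w l - w (l + n)) * ‖g (l + n)‖ * exp (t * n)
        = ‖f l‖ * ‖g (l + n)‖ * (exp (w l - w (l + n)) * exp (t * n)) := by ring
      _ = _ := by rw [e]; ring
  have hbig : ∀ l, w l + t * n ≤ w (l + n) →
      ‖T l‖ * exp (t * n) ≤ ‖f l‖ ^ 2 + ‖g (l + n)‖ ^ 2 := by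
    intro l hl
    have e : exp (w l - w (l + n)) * exp (t * n) ≤ 1 := by
      rw [← exp_add]; exact exp_le_one_iff.2 (by linarith)
    simp only [hT, norm_mul, Complex.norm_real, Real.norm_eq_abs, abs_exp]
    calc ‖f l‖ * exp (w l - w (l + n)) * ‖g (l + n)‖ * exp (t * n)
        = ‖f l‖ * ‖g (l + n)‖ * (exp (w l - w (l + n)) * exp (t * n)) := by ring
      _ ≤ ‖f l‖ * ‖g (l + n)‖ := mul_le_of_le_one_right (by positivity) e
      _ ≤ _ := by nlinarith [norm_nonneg (f l), norm_nonneg (g (l + n))]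
  have hFa : ∀ l, l ≤ c → ‖f l‖ * exp (w l - w c) * exp (t * ((c - l : ℤ) : ℝ)) ≤
      A * exp (-2 * |((l - (c - p) : ℤ) : ℝ)|) := by
    intro l hl
    obtain ⟨p', rfl⟩ : ∃ p' : ℕ, l = c - p' := ⟨(c - l).toNat, by omega⟩
    have := hp p'
    rw [abs_sub_comm] at this
    convert this using 4 <;> push_cast <;> ring
  have hGb : ∀ l, c ≤ l + n → ‖g (l + n)‖ * exp (w c - w (l + n)) *
      exp (t * ((l + n - c : ℤ) : ℝ)) ≤ B * exp (-2 * |((l - (c - p) : ℤ) : ℝ)|) := by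
    intro l hl
    obtain ⟨q', hq'⟩ : ∃ q' : ℕ, l + n = c + q' := ⟨(l + n - c).toNat, by omega⟩
    have e : l - (c - p) = (q' : ℤ) - q := by rw [hn] at hq'; push_cast at hq'; omega
    rw [e, hq']
    convert hq q' using 4 <;> push_cast <;> ring
  have hterm : ∀ l, ‖T l‖ * exp (t * n) ≤
      A * B * exp (-2 * |((l - (c - p) : ℤ) : ℝ)|) + (‖f l‖ ^ 2 + ‖g (l + n)‖ ^ 2) := by
    intro l
    have p1 : 0 ≤ A * B * exp (-2 * |((l - (c - p) : ℤ) : ℝ)|) := by positivity
    have p2 : 0 ≤ ‖f l‖ ^ 2 + ‖g (l + n)‖ ^ 2 := by positivity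
    by_cases h1 : l ≤ c
    · by_cases h2 : c ≤ l + n
      · rw [hTn]
        refine le_trans (mul_le_mul ((hFa l h1).trans (mul_le_of_le_one_right hA0 (hdec _)))
          (hGb l h2) (by positivity) hA0) ?_
        rw [← mul_assoc]; linarith
      · by_cases h3 : d (l + n) ≤ t
        · obtain ⟨k, hk⟩ : ∃ k : ℕ, c = l + n + k := ⟨(c - (l + n)).toNat, by omega⟩
          have h4 := key_tele_le hw (t := t) (l + n) k fun j j1 j2 => by
            by_cases hj0 : j < 0
            · exact (hdown j _ hj0 j1).trans h3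
            · exact (hup j (c - 1) (by omega) (by omega)).trans tc'
          rw [← hk] at h4
          have h5 : ‖g (l + n)‖ * exp (w c - w (l + n)) * exp (t * ((l + n - c : ℤ) : ℝ)) ≤ B := by
            rw [mul_assoc, ← exp_add]
            refine le_trans (mul_le_of_le_one_right (norm_nonneg _) (exp_le_one_iff.2 ?_))
              (by linarith [hgK (l + n)])
            rw [show l + n - c = -(k : ℤ) by omega]
            push_cast; linarith
          rw [hTn]
          refine le_trans (mul_le_mul (hFa l h1) h5 (by positivity) (by positivity)) ?_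
          linarith
        · have h4 : l + n < 0 := by
            by_contra h5
            exact h3 ((hup (l + n) (c - 1) (by omega) (by omega)).trans tc')
          have h5 := key_tele_ge hw (t := t) l n fun j _ j2 =>
            (not_le.1 h3).le.trans (hdown _ j h4 j2.le)
          linarith [hbig l h5]
    · by_cases h3 : d (l - 1) ≤ t
      · obtain ⟨k, hk⟩ : ∃ k : ℕ, l = c + k := ⟨(l - c).toNat, by omega⟩
        have h4 := key_tele_le hw (t := t) c k fun j j1 j2 => by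
          by_cases hj0 : j < 0
          · exact (hdown j _ hj0 j1).trans tc
          · exact (hup j (l - 1) (by omega) (by omega)).trans h3
        rw [← hk] at h4
        have h5 : ‖f l‖ * exp (w l - w c) * exp (t * ((c - l : ℤ) : ℝ)) ≤ A := by
          rw [mul_assoc, ← exp_add]
          refine le_trans (mul_le_of_le_one_right (norm_nonneg _) (exp_le_one_iff.2 ?_))
            (by linarith [hfK l])
          rw [show c - l = -(k : ℤ) by omega]
          push_cast; linarith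
        rw [hTn]
        refine le_trans (mul_le_mul h5 (hGb l (by omega)) (by positivity) hA0) ?_
        rw [← mul_assoc]; linarith
      · have h4 : 0 ≤ l - 1 := by
          by_contra h5
          exact h3 ((hdown (l - 1) c (by omega) (by omega)).trans tc)
        have h5 := key_tele_ge hw (t := t) l n fun j j1 _ =>
          (not_le.1 h3).le.trans (hup _ j h4 (by omega))
        linarith [hbig l h5]
  obtain ⟨s, hs, hsum⟩ := key_geom (c - p)
  have hg' : HasSum (fun l : ℤ => ‖g (l + n)‖ ^ 2) (∑' l, ‖g l‖ ^ 2) :=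
    (Equiv.addRight (n : ℤ)).hasSum_iff.2 hg.hasSum
  have hR := (hsum.mul_left (A * B)).add (hf.hasSum.add hg')
  have hT0 : HasSum (fun l => if l = c - p then 0 else T l * (exp (t * n) : ℂ))
      (0 * (exp (t * n) : ℂ) - T (c - p) * (exp (t * n) : ℂ)) :=
    hasSum_ite_sub_hasSum ((h n).mul_right _) (c - p)
  have hle := hT0.norm_le_of_bounded hR fun l => by
    split_ifs with hl
    · rw [norm_zero]; positivity
    · rw [norm_mul, Complex.norm_real, Real.norm_eq_abs, abs_exp]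
      exact hterm l
  have hmain : ‖T (c - p)‖ * exp (t * n) = A * B := by
    rw [hTn, show c - p + (n : ℤ) = c + q by rw [hn]; push_cast; ring]
    simp [hA, hB, ha, hb]
  rw [zero_mul, zero_sub, norm_neg, norm_mul, Complex.norm_real, Real.norm_eq_abs, abs_exp,
    hmain] at hle
  have h1 : 2 * K * (2 * K) ≤ A * B := mul_le_mul hAK hBK (by linarith) hA0
  have h2 : A * B * s ≤ A * B * (1 / 2) := mul_le_mul_of_nonneg_left hs (mul_nonneg hA0 hB0)
  nlinarith

/-- **Key lemma.**  If `g` annihilates all forward shifts of `f`, the support of `g` lies below that of `f`. -/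
theorem key (d w : ℤ → ℝ) (C₀ : ℝ) (hup : ∀ i j, 0 ≤ i → i ≤ j → d i ≤ d j)
    (hdown : ∀ i j, i < 0 → j ≤ i → d i ≤ d j) (hgrow : ∀ j : ℤ, 100 * |(j : ℝ)| ≤ d j + C₀)
    (hw : ∀ j, w (j + 1) = w j + d j) (f g : ℤ → ℂ) (hf : Summable fun l => ‖f l‖ ^ 2)
    (hg : Summable fun l => ‖g l‖ ^ 2)
    (h : ∀ n : ℕ, HasSum (fun l => f l * (exp (w l - w (l + n)) : ℂ) * g (l + n)) 0)
    {i j : ℤ} (hi : f i ≠ 0) (hj : g j ≠ 0) : j < i := by
  have far : ∀ i j, f i ≠ 0 → g j ≠ 0 → j ≤ i + 1 := by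
    intro i j hi hj
    by_contra hlt
    refine key_far d w C₀ hup hdown hgrow hw f g hf hg h (i + 1) (q₀ := (j - (i + 1)).toNat)
      (by omega) (by simpa using hi) ?_
    rwa [show i + 1 + ((j - (i + 1)).toNat : ℤ) = j by omega]
  by_contra hlt
  obtain ⟨I, hI, hImin⟩ := Int.exists_least_of_bdd (P := fun i => f i ≠ 0)
    ⟨j - 1, fun z hz => by have := far z j hz hj; omega⟩ ⟨i, hi⟩
  obtain ⟨J, hJ, hJmax⟩ := Int.exists_greatest_of_bdd (P := fun j => g j ≠ 0)
    ⟨i + 1, fun z hz => far i z hi hz⟩ ⟨j, hj⟩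
  have h1 := hImin i hi
  have h2 := hJmax j hj
  have h3 : I + ((J - I).toNat : ℤ) = J := by omega
  have h4 := (h (J - I).toNat).unique (hasSum_single I fun l hl => by
    rcases lt_or_gt_of_ne hl with hl | hl
    · have : f l = 0 := by by_contra e; have := hImin l e; omega
      simp [this]
    · have : g (l + ((J - I).toNat : ℤ)) = 0 := by by_contra e; have := hJmax _ e; omega
      rw [this, mul_zero])
  rw [h3] at h4
  exact mul_ne_zero (mul_ne_zero hI (by exact_mod_cast (exp_pos _).ne')) hJ h4.symm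

end Crest.Agent.R113b
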