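import Crest.Prelude.Def_TwoAdicShift
import Crest.Agent.R113b.Uni

/-!
# Row 113, S0150: weighted shifts on `ℓ²(ℤ)`
-/

set_option autoImplicit false

namespace Crest.Agent.R113b

open Filter Topology Crest.AnalysisR.TwoAdic
open scoped InnerProductSpace

/-- `A` is the weighted shift `δ j ↦ c j • δ (j + k)` -/
def IsW (A : seqHilbert →L[ℂ] seqHilbert) (c : ℤ → ℝ) (k : ℤ) : Prop :=
  ∀ (v : seqHilbert) (j : ℤ), A v (j + k) = c j * v j

theorem summable_sq (v : seqHilbert) : Summable fun j => ‖v j‖ ^ 2 := by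
  simpa using (lp.memℓp v).summable (by norm_num)

theorem hasSum_sq (v : seqHilbert) : HasSum (fun j => ‖v j‖ ^ 2) (‖v‖ ^ 2) := by
  simpa using lp.hasSum_norm (p := 2) (by norm_num) v

theorem norm_le_of_coord {v w : seqHilbert} {c : ℤ → ℝ} {k : ℤ} {C : ℝ} (hC : 0 ≤ C)
    (hc : ∀ j, |c j| ≤ C) (h : ∀ j, w (j + k) = c j * v j) : ‖w‖ ≤ C * ‖v‖ := by
  refine le_of_sq_le_sq ?_ (by positivity)
  have h1 := ((Equiv.addRight k).hasSum_iff (f := fun j => ‖w j‖ ^ 2)).2 (hasSum_sq w)
  rw [mul_pow]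
  refine hasSum_le (fun j => ?_) h1 ((hasSum_sq v).mul_left (C ^ 2))
  simp only [Function.comp_apply, Equiv.coe_addRight, h, norm_mul, Complex.norm_real,
    Real.norm_eq_abs, mul_pow]
  exact mul_le_mul_of_nonneg_right (pow_le_pow_left₀ (abs_nonneg _) (hc j) 2) (sq_nonneg _)

theorem IsW.norm_le {A : seqHilbert →L[ℂ] seqHilbert} {c : ℤ → ℝ} {k : ℤ} (h : IsW A c k) {C : ℝ}
    (hC : 0 ≤ C) (hc : ∀ j, |c j| ≤ C) : ‖A‖ ≤ C :=
  A.opNorm_le_bound hC fun v => norm_le_of_coord hC hc (h v)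

theorem exists_isW (c : ℤ → ℝ) (k : ℤ) {C : ℝ} (hC : 0 ≤ C) (hc : ∀ j, |c j| ≤ C) :
    ∃ A, IsW A c k := by
  have hm : ∀ v : seqHilbert, Memℓp (fun i => (c (i - k) : ℂ) * v (i - k)) 2 := fun v => by
    refine memℓp_gen ?_
    have h1 := ((Equiv.subRight k).summable_iff (f := fun j => C ^ 2 * ‖v j‖ ^ 2)).2
      ((summable_sq v).mul_left _)
    refine h1.of_nonneg_of_le (fun i => by positivity) fun i => ?_
    simp only [Function.comp_apply, Equiv.subRight_apply, norm_mul, Complex.norm_real,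
      Real.norm_eq_abs, ENNReal.toReal_ofNat, Real.rpow_ofNat, mul_pow]
    exact mul_le_mul_of_nonneg_right (pow_le_pow_left₀ (abs_nonneg _) (hc _) 2) (sq_nonneg _)
  let L : seqHilbert →ₗ[ℂ] seqHilbert :=
    { toFun := fun v => ⟨fun i => (c (i - k) : ℂ) * v (i - k), hm v⟩
      map_add' := fun v w => lp.ext (funext fun i => mul_add _ _ _)
      map_smul' := fun a v => lp.ext (funext fun i => by simp [mul_left_comm]) }
  have hL : ∀ (v : seqHilbert) j, L v (j + k) = c j * v j := fun v j => by simp [L]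
  exact ⟨L.mkContinuous C fun v => norm_le_of_coord hC hc (hL v), hL⟩

theorem IsW.apply {A : seqHilbert →L[ℂ] seqHilbert} {c : ℤ → ℝ} {k : ℤ} (h : IsW A c k)
    (v : seqHilbert) (i : ℤ) : A v i = c (i - k) * v (i - k) := by
  rw [← h v (i - k), sub_add_cancel]

theorem IsW.unique {A B : seqHilbert →L[ℂ] seqHilbert} {c : ℤ → ℝ} {k : ℤ} (h : IsW A c k)
    (h' : IsW B c k) : A = B := by
  ext v i
  rw [h.apply, h'.apply]

theorem IsW.mul {A B : seqHilbert →L[ℂ] seqHilbert} {c d : ℤ → ℝ} {k l : ℤ} (h : IsW A c k)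
    (h' : IsW B d l) : IsW (A * B) (fun j => c (j + l) * d j) (l + k) := fun v j => by
  rw [mul_apply_eq_comp, ← add_assoc, h, h']
  push_cast
  ring

theorem basisVec_apply (j i : ℤ) : basisVec j i = if i = j then 1 else 0 := by
  simp [basisVec, lp.single_apply, Pi.single_apply]

theorem norm_basisVec (j : ℤ) : ‖basisVec j‖ = 1 := by simp [basisVec]

theorem IsW.basis {A : seqHilbert →L[ℂ] seqHilbert} {c : ℤ → ℝ} {k : ℤ} (h : IsW A c k) (j : ℤ) :
    A (basisVec j) = (c j : ℂ) • basisVec (j + k) := by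
  ext i
  rw [h.apply, lp.coeFn_smul, Pi.smul_apply, basisVec_apply, basisVec_apply]
  by_cases hi : i = j + k
  · simp [hi]
  · simp [hi, show ¬ i - k = j by omega]

theorem IsW.pow {A : seqHilbert →L[ℂ] seqHilbert} {φ : ℤ → ℝ}
    (h : IsW A (fun j => Real.exp (φ j - φ (j + 1))) 1) (n : ℕ) :
    IsW (A ^ n) (fun j => Real.exp (φ j - φ (j + n))) n := by
  induction n with
  | zero => intro v j; simp
  | succ n ih =>
    have := h.mul ih
    rw [← pow_succ'] at this
    convert this using 2 with j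
    · rw [← Real.exp_add]; congr 1; push_cast; rw [add_assoc]; ring
    · rfl

theorem Cost.orth {φ : ℤ → ℝ} (hφ : Cost φ) {A : seqHilbert →L[ℂ] seqHilbert}
    (h : IsW A (fun j => Real.exp (φ j - φ (j + 1))) 1) {f u : seqHilbert}
    (h0 : ∀ n : ℕ, ⟪u, (A ^ n) f⟫_ℂ = 0) {s m : ℤ} (hsm : s ≤ m) : f s = 0 ∨ u m = 0 := by
  have := hφ.core (f := f) (u := fun j => (starRingEnd ℂ) (u j)) (summable_sq f)
    (by simpa using summable_sq u) (fun n => ?_) hsm
  · simpa using this
  have h1 := ((Equiv.addRight (n : ℤ)).hasSum_iff).2 (lp.hasSum_inner (𝕜 := ℂ) u ((A ^ n) f))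
  rw [h0] at h1
  refine Eq.mp (congrArg (HasSum · 0) (funext fun j => ?_)) h1
  simp only [Function.comp_apply, Equiv.coe_addRight, h.pow n f j, RCLike.inner_apply]
  ring

theorem hasSum_basis (v : seqHilbert) : HasSum (fun j => v j • basisVec j) v := by
  convert lp.hasSum_single (p := 2) (by norm_num) v using 2 with j
  rw [basisVec, ← lp.single_smul]; simp

theorem mem_of_basis {W : Submodule ℂ seqHilbert} (hW : IsClosed (W : Set seqHilbert)) {v : seqHilbert}
    (h : ∀ j, v j ≠ 0 → basisVec j ∈ W) : v ∈ W := by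
  refine hW.mem_of_tendsto (hasSum_basis v) (Eventually.of_forall fun s => W.sum_mem fun j _ => ?_)
  by_cases hj : v j = 0
  · simp [hj]
  · exact W.smul_mem _ (h j hj)

theorem basis_mem_tail {h j : ℤ} (hj : h ≤ j) : basisVec j ∈ tailSpace h :=
  Submodule.le_topologicalClosure _ (Submodule.subset_span ⟨⟨j, hj⟩, rfl⟩)

theorem isClosed_tail (h : ℤ) : IsClosed (tailSpace h : Set seqHilbert) :=
  Submodule.isClosed_topologicalClosure _

theorem mem_tail {h : ℤ} {v : seqHilbert} : v ∈ tailSpace h ↔ ∀ j < h, v j = 0 := by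
  constructor
  · intro hv j hj
    have : tailSpace h ≤ (innerSL ℂ (basisVec j)).ker := by
      refine Submodule.topologicalClosure_minimal _ (Submodule.span_le.2 ?_)
        (ContinuousLinearMap.isClosed_ker _)
      rintro _ ⟨i, rfl⟩
      have := i.2
      simp [basisVec, lp.inner_single_left, lp.single_apply, show ¬ j = i by omega]
    simpa [basisVec, lp.inner_single_left] using this hv
  · intro hv
    exact mem_of_basis (isClosed_tail h) fun j hj => basis_mem_tail (not_lt.1 fun h => hj (hv j h))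

theorem basis_mem_of_orth {W : Submodule ℂ seqHilbert} (hW : IsClosed (W : Set seqHilbert)) {j : ℤ}
    (h : ∀ u ∈ Wᗮ, u j = 0) : basisVec j ∈ W := by
  have := hW.completeSpace_coe
  rw [← W.orthogonal_orthogonal, Submodule.mem_orthogonal]
  intro u hu
  simp [basisVec, lp.inner_single_right, h u hu]

theorem Cost.unicell {φ : ℤ → ℝ} (hφ : Cost φ) {A : seqHilbert →L[ℂ] seqHilbert}
    (h : IsW A (fun j => Real.exp (φ j - φ (j + 1))) 1) (W : Submodule ℂ seqHilbert)
    (hW : IsClosed (W : Set seqHilbert)) :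
    (∀ v ∈ W, A v ∈ W) ↔ (W = ⊥ ∨ W = ⊤ ∨ ∃ h : ℤ, W = tailSpace h) := by
  constructor
  · intro hA
    have hp : ∀ n : ℕ, ∀ v ∈ W, (A ^ n) v ∈ W := fun n v hv => by
      induction n with
      | zero => simpa using hv
      | succ n ih => rw [pow_succ', mul_apply_eq_comp]; exact hA _ ih
    have key : ∀ s, (∃ f ∈ W, f s ≠ 0) → ∀ m, s ≤ m → basisVec m ∈ W := by
      rintro s ⟨f, hf, hs⟩ m hsm
      exact basis_mem_of_orth hW fun u hu => (hφ.orth h (fun n =>
        (Submodule.mem_orthogonal' _ _).1 hu _ (hp n f hf)) hsm).resolve_left hs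
    by_cases h1 : ∃ s, ∃ f ∈ W, f s ≠ 0
    swap
    · left
      push Not at h1
      exact (Submodule.eq_bot_iff _).2 fun f hf => lp.ext (funext fun s => h1 s f hf)
    right
    by_cases h2 : ∃ b : ℤ, ∀ s, (∃ f ∈ W, f s ≠ 0) → b ≤ s
    · right
      obtain ⟨s, hs, hmin⟩ := Int.exists_least_of_bdd h2 h1
      refine ⟨s, le_antisymm (fun f hf => mem_tail.2 fun j hj => ?_) fun v hv => ?_⟩
      · by_contra hn
        exact absurd (hmin j ⟨f, hf, hn⟩) (not_le.2 hj)
      · exact mem_of_basis hW fun j hj => key s hs j (not_lt.1 fun h => hj (mem_tail.1 hv j h))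
    · left
      push Not at h2
      refine eq_top_iff.2 fun v _ => mem_of_basis hW fun j _ => ?_
      obtain ⟨s, hs, hsj⟩ := h2 j
      exact key s hs j hsj.le
  · rintro (rfl | rfl | ⟨t, rfl⟩) v hv
    · simp [(Submodule.mem_bot ℂ).1 hv]
    · trivial
    · refine mem_tail.2 fun j hj => ?_
      rw [h.apply, mem_tail.1 hv _ (by omega), mul_zero]

theorem IsW.basis_mem {A : seqHilbert →L[ℂ] seqHilbert} {c : ℤ → ℝ} {k : ℤ} (h : IsW A c k)
    (hc : ∀ j, 0 < c j) {W : Submodule ℂ seqHilbert} {j : ℤ} (hj : basisVec (j - k) ∈ W) :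
    basisVec j ∈ (W.map (A : seqHilbert →ₗ[ℂ] seqHilbert)).topologicalClosure := by
  refine Submodule.le_topologicalClosure _ ⟨(c (j - k) : ℂ)⁻¹ • basisVec (j - k), W.smul_mem _ hj, ?_⟩
  have : (c (j - k) : ℂ) ≠ 0 := by exact_mod_cast (hc _).ne'
  rw [ContinuousLinearMap.coe_coe, map_smul, h.basis, inv_smul_smul₀ this, sub_add_cancel]

theorem IsW.closure_tail {A : seqHilbert →L[ℂ] seqHilbert} {c : ℤ → ℝ} (h : IsW A c (-1))
    (hc : ∀ j, 0 < c j) (t : ℤ) :
    closure (A '' (tailSpace t : Set seqHilbert)) = (tailSpace (t - 1) : Set seqHilbert) := by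
  refine le_antisymm (closure_minimal ?_ (isClosed_tail _)) fun v hv => ?_
  · rintro _ ⟨v, hv, rfl⟩
    refine mem_tail.2 fun j hj => ?_
    rw [h.apply, mem_tail.1 hv _ (by omega), mul_zero]
  · refine mem_of_basis (W := ((tailSpace t).map (A : seqHilbert →ₗ[ℂ] seqHilbert)).topologicalClosure)
      (Submodule.isClosed_topologicalClosure _) fun j hj => h.basis_mem hc (basis_mem_tail ?_)
    have := not_lt.1 fun h => hj (mem_tail.1 hv j h)
    omega

theorem IsW.closure_range {A : seqHilbert →L[ℂ] seqHilbert} {c : ℤ → ℝ} {k : ℤ} (h : IsW A c k)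
    (hc : ∀ j, 0 < c j) : closure (Set.range A) = Set.univ := by
  refine Set.eq_univ_of_forall fun v => ?_
  have := mem_of_basis (W := ((⊤ : Submodule ℂ _).map (A : seqHilbert →ₗ[ℂ] seqHilbert)).topologicalClosure)
    (Submodule.isClosed_topologicalClosure _) (v := v) fun j _ => h.basis_mem hc trivial
  rw [Submodule.map_top] at this
  exact this

end Crest.Agent.R113b
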